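import Vale.Agent.P183.Mk

namespace Vale.Agent.P183.Lift

open Relation

universe u

variable {L : Type u}

section walk

variable {Y : Type}

/-- Walks of length `n` in a relation. -/
def Walk (R : Y → Y → Prop) (n : ℕ) (u v : Y) : Prop :=
  ∃ y : ℕ → Y, y 0 = u ∧ y n = v ∧ ∀ i, i < n → R (y i) (y (i + 1))

variable {R R' : Y → Y → Prop}

theorem Walk.refl (u : Y) : Walk R 0 u u := ⟨fun _ => u, rfl, rfl, fun _ h => absurd h (Nat.not_lt_zero _)⟩

theorem Walk.of_rel {u v : Y} (h : R u v) : Walk R 1 u v := by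
  refine ⟨fun j => if j = 0 then u else v, by simp, by simp, fun i hi => ?_⟩
  have : i = 0 := by omega
  subst this
  simpa using h

theorem Walk.trans {n m : ℕ} {u v w : Y} (h1 : Walk R n u v) (h2 : Walk R m v w) :
    Walk R (n + m) u w := by
  obtain ⟨y1, h1a, h1b, h1s⟩ := h1
  obtain ⟨y2, h2a, h2b, h2s⟩ := h2
  refine ⟨fun j => if j ≤ n then y1 j else y2 (j - n), ?_, ?_, fun i hi => ?_⟩
  · simp [h1a]
  · by_cases hm : m = 0
    · subst hm
      simp [h1b]
      exact h2a.symm.trans h2b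
    · have : ¬ n + m ≤ n := by omega
      simp only [if_neg this]
      simpa using h2b
  · by_cases h3 : i + 1 ≤ n
    · simp only [if_pos h3, if_pos (show i ≤ n by omega)]
      exact h1s i (by omega)
    · simp only [if_neg h3]
      by_cases h4 : i = n
      · subst h4
        simp only [le_refl, if_true, h1b]
        have := h2s 0 (by omega)
        rw [h2a] at this
        simpa using this
      · simp only [if_neg (show ¬ i ≤ n by omega)]
        have := h2s (i - n) (by omega)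
        rwa [show i - n + 1 = i + 1 - n by omega] at this

theorem Walk.mono (h : ∀ x y, R x y → R' x y) {n : ℕ} {u v : Y} (hw : Walk R n u v) :
    Walk R' n u v := by
  obtain ⟨y, h0, h1, hs⟩ := hw
  exact ⟨y, h0, h1, fun i hi => h _ _ (hs i hi)⟩

theorem Walk.comp {K : ℕ} (h : ∀ x y, R x y → ∃ m, m ≤ K ∧ Walk R' m x y) {n : ℕ} {u v : Y}
    (hw : Walk R n u v) : ∃ m, m ≤ n * K ∧ Walk R' m u v := by
  obtain ⟨y, rfl, rfl, hs⟩ := hw
  have key : ∀ k, k ≤ n → ∃ m, m ≤ k * K ∧ Walk R' m (y 0) (y k) := by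
    intro k
    induction k with
    | zero => intro _; exact ⟨0, by omega, Walk.refl _⟩
    | succ k ih =>
      intro hk
      obtain ⟨m1, h1, h2⟩ := ih (by omega)
      obtain ⟨m2, h3, h4⟩ := h _ _ (hs k (by omega))
      refine ⟨m1 + m2, ?_, h2.trans h4⟩
      rw [Nat.succ_mul]
      omega
  exact key n le_rfl

theorem Walk.symm (h : ∀ x y, R x y → R y x) {n : ℕ} {u v : Y} (hw : Walk R n u v) :
    Walk R n v u := by
  obtain ⟨y, rfl, rfl, hs⟩ := hw
  refine ⟨fun j => y (n - j), by simp, by simp, fun i hi => ?_⟩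
  have := h _ _ (hs (n - 1 - i) (by omega))
  simp only
  rwa [show n - 1 - i + 1 = n - i by omega, show n - 1 - i = n - (i + 1) by omega] at this

/-- A walk gives a chain along a periodic word containing its steps. -/
theorem Walk.chain {S : ℕ → Y → Y → Prop} (hS : ∀ j x, S j x x) {Q : ℕ}
    (hper : ∀ j, S (j + Q) = S j) (h : ∀ x y, R x y → ∃ e, e < Q ∧ S e x y) {M N : ℕ}
    (hMN : M ≤ N) {u v : Y} (hw : Walk R M u v) : Chain S 0 (N * Q) u v := by
  obtain ⟨y, rfl, rfl, hs⟩ := hw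
  exact Chain.travel hS hper y hMN (fun t ht => h _ _ (hs t ht))

/-- Walks from equivalence closures of symmetric relations. -/
theorem walk_of_eqvGen (h : ∀ x y, R x y → R y x) {u v : Y} (huv : EqvGen R u v) :
    ∃ n, Walk R n u v := by
  induction huv with
  | rel _ _ hr => exact ⟨1, Walk.of_rel hr⟩
  | refl x => exact ⟨0, Walk.refl x⟩
  | symm _ _ _ ih =>
    obtain ⟨n, hn⟩ := ih
    exact ⟨n, hn.symm h⟩
  | trans _ _ _ _ _ ih1 ih2 =>
    obtain ⟨n, hn⟩ := ih1
    obtain ⟨m, hm⟩ := ih2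
    exact ⟨n + m, hn.trans hm⟩

/-- A transitive reflexive relation contains the walks. -/
theorem Walk.le {θ : Setoid Y} (h : ∀ x y, R x y → θ x y) {n : ℕ} {u v : Y} (hw : Walk R n u v) :
    θ u v := by
  obtain ⟨y, rfl, rfl, hs⟩ := hw
  have key : ∀ k, k ≤ n → θ (y 0) (y k) := by
    intro k
    induction k with
    | zero => intro _; exact θ.refl' _
    | succ k ih =>
      intro hk
      exact θ.trans' (ih (by omega)) (h _ _ (hs k (by omega)))
  exact key n le_rfl

end walk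

section graph

variable {X : Type}

/-- Connectivity in a labelled graph. -/
def gconn [LE L] (E : L → X → X → Prop) (t : L) : Setoid X :=
  EqvGen.setoid (fun u v => ∃ ℓ, ℓ ≤ t ∧ E ℓ u v)

/-- Morphisms of a labelled graph. -/
def gMor (E : L → X → X → Prop) {Y : Type} (lv : L → Setoid Y) (f : X → Y) : Prop :=
  ∀ ℓ u v, E ℓ u v → lv ℓ (f u) (f v)

/-- Closed equivalences of a labelled graph. -/
def gClosed [LE L] (E : L → X → X → Prop) (θ : Setoid X) : Prop :=
  ∀ f : X → X, gMor E (gconn E) f → ∀ x y, θ x y → θ (f x) (f y)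

/-- Equivalence generated by edges in `θ`. -/
def gEC (E : L → X → X → Prop) (θ : Setoid X) : X → X → Prop :=
  EqvGen (fun u v => (∃ ℓ, E ℓ u v) ∧ θ u v)

variable {E : L → X → X → Prop}

theorem gconn_edge [Preorder L] {ℓ t : L} {u v : X} (h : ℓ ≤ t) (e : E ℓ u v) : gconn E t u v :=
  EqvGen.rel _ _ ⟨ℓ, h, e⟩

theorem gconn_mono [Preorder L] {s t : L} (h : s ≤ t) {u v : X} (huv : gconn E s u v) :
    gconn E t u v := by
  change EqvGen _ u v at huv
  change EqvGen _ u v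
  refine EqvGen.mono ?_ _ _ huv
  rintro a b ⟨ℓ, hℓ, e⟩
  exact ⟨ℓ, hℓ.trans h, e⟩

/-- A morphism to a monotone space sends connected pairs to related pairs. -/
theorem gMor_conn [Preorder L] {Y : Type} {lv : L → Setoid Y} (hlv : ∀ s t, s ≤ t → lv s ≤ lv t)
    {f : X → Y} (hf : gMor E lv f) {t : L} {x y : X} (h : gconn E t x y) : lv t (f x) (f y) := by
  change EqvGen _ x y at h
  induction h with
  | rel _ _ h =>
    obtain ⟨ℓ, hℓ, e⟩ := h
    exact hlv _ _ hℓ (hf _ _ _ e)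
  | refl x => exact (lv t).refl' _
  | symm _ _ _ ih => exact (lv t).symm' ih
  | trans _ _ _ _ _ ih1 ih2 => exact (lv t).trans' ih1 ih2

theorem gconn_mono' [Preorder L] (E : L → X → X → Prop) (s t : L) (h : s ≤ t) :
    gconn E s ≤ gconn E t := fun _ _ hxy => gconn_mono h hxy

theorem gMor_comp [Preorder L] {Y : Type} {lv : L → Setoid Y} (hlv : ∀ s t, s ≤ t → lv s ≤ lv t)
    {g : X → Y} (hg : gMor E lv g) {f : X → X} (hf : gMor E (gconn E) f) :
    gMor E lv (fun x => g (f x)) :=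
  fun _ _ _ e => gMor_conn hlv hg (hf _ _ _ e)

end graph

section K

variable {X : Type}

/-- Inner vertices for a choice of terminals. -/
def KInner (s t : X) : Type := {x : X // x ≠ s ∧ x ≠ t}

/-- Forgetting the terminals. -/
def ke (s t : X) : Bool ⊕ KInner s t → X
  | Sum.inl false => s
  | Sum.inl true => t
  | Sum.inr x => x.1

open Classical in
/-- Marking the terminals. -/
noncomputable def kd (s t : X) (x : X) : Bool ⊕ KInner s t :=
  if h : x = s then Sum.inl false else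
  if h' : x = t then Sum.inl true else Sum.inr ⟨x, h, h'⟩

theorem ke_kd (s t x : X) : ke s t (kd s t x) = x := by
  unfold kd
  by_cases h : x = s
  · rw [dif_pos h]
    exact h.symm
  · rw [dif_neg h]
    by_cases h' : x = t
    · rw [dif_pos h']
      exact h'.symm
    · rw [dif_neg h']
      rfl

theorem kd_ke {s t : X} (hst : s ≠ t) (u : Bool ⊕ KInner s t) : kd s t (ke s t u) = u := by
  unfold kd
  rcases u with (_ | _) | ⟨x, h1, h2⟩
  · simp [ke]
  · simp [ke, hst.symm]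
  · simp [ke, h1, h2]

/-- The graph on `X` as a bipole with terminals `s`, `t`. -/
def Kbip [Finite X] (E : L → X → X → Prop) (s t : X) : Bip L :=
  ⟨KInner s t, by unfold KInner; infer_instance, fun ℓ u v => E ℓ (ke s t u) (ke s t v)⟩

variable [Finite X] {E : L → X → X → Prop}

theorem sem_Kbip {s t : X} (hst : s ≠ t) {Y : Type} {lv : L → Setoid Y} {u v : Y} :
    (Kbip E s t).Sem lv u v ↔ ∃ f : X → Y, gMor E lv f ∧ f s = u ∧ f t = v := by
  constructor
  · rintro ⟨g, hg, rfl, rfl⟩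
    refine ⟨fun x => g (kd s t x), fun ℓ x y e => ?_, ?_, ?_⟩
    · refine hg ℓ _ _ ?_
      change E ℓ (ke s t (kd s t x)) (ke s t (kd s t y))
      rwa [ke_kd, ke_kd]
    · have : kd s t s = Sum.inl false := by
        rw [← kd_ke hst (Sum.inl false)]; rfl
      simp only [this]
      rfl
    · have : kd s t t = Sum.inl true := by
        rw [← kd_ke hst (Sum.inl true)]; rfl
      simp only [this]
      rfl
  · rintro ⟨f, hf, rfl, rfl⟩
    exact ⟨fun w => f (ke s t w), fun ℓ x y e => hf ℓ _ _ e, rfl, rfl⟩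

theorem tw_Kbip {s t : X} (hst : s ≠ t) : (Kbip E s t).Tw (Kbip E t s) := by
  intro Y lv u v h
  rw [sem_Kbip hst] at h
  rw [sem_Kbip hst.symm]
  obtain ⟨f, h1, h2, h3⟩ := h
  exact ⟨f, h1, h3, h2⟩

theorem PL_Kbip [Preorder L] {s t : X} (hst : s ≠ t)
    (hPL : ∀ θ, gClosed E θ → ∀ x y, θ x y → gEC E θ x y) : (Kbip E s t).PLProp := by
  intro θ hθ x y hxy
  -- transfer of connectivity
  have hconn : ∀ {τ : L} {a b : X}, gconn E τ a b → (Kbip E s t).conn τ (kd s t a) (kd s t b) := by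
    intro τ a b h
    change EqvGen _ a b at h
    induction h with
    | rel _ _ h =>
      obtain ⟨ℓ, hℓ, e⟩ := h
      refine (Kbip E s t).conn_edge hℓ ?_
      change E ℓ (ke s t (kd s t _)) (ke s t (kd s t _))
      rwa [ke_kd, ke_kd]
    | refl x => exact ((Kbip E s t).conn τ).refl' _
    | symm _ _ _ ih => exact ((Kbip E s t).conn τ).symm' ih
    | trans _ _ _ _ _ ih1 ih2 => exact ((Kbip E s t).conn τ).trans' ih1 ih2
  have hcl : gClosed E (Setoid.comap (kd s t) θ) := by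
    intro f hf a b hab
    have hg : (Kbip E s t).IsMor (Kbip E s t).conn (fun w => kd s t (f (ke s t w))) :=
      fun ℓ u v e => hconn (hf ℓ _ _ e)
    have := hθ _ hg _ _ hab
    simp only [ke_kd] at this
    exact this
  have ex : kd s t (ke s t x) = x := kd_ke hst x
  have ey : kd s t (ke s t y) = y := kd_ke hst y
  have h1 := hPL _ hcl (ke s t x) (ke s t y) (by
    change θ (kd s t (ke s t x)) (kd s t (ke s t y))
    rwa [ex, ey])
  have h2 : ∀ {a b : X}, gEC E (Setoid.comap (kd s t) θ) a b →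
      (Kbip E s t).EC θ (kd s t a) (kd s t b) := by
    intro a b h
    change EqvGen _ a b at h
    induction h with
    | rel _ _ h =>
      obtain ⟨⟨ℓ, e⟩, h⟩ := h
      refine EqvGen.rel _ _ ⟨⟨ℓ, ?_⟩, h⟩
      change E ℓ (ke s t (kd s t _)) (ke s t (kd s t _))
      rwa [ke_kd, ke_kd]
    | refl x => exact EqvGen.refl _
    | symm _ _ _ ih => exact EqvGen.symm _ _ ih
    | trans _ _ _ _ _ ih1 ih2 => exact EqvGen.trans _ _ _ ih1 ih2
  have h3 := h2 h1
  rwa [ex, ey] at h3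

/-- A map on the graph from an occurrence of the bipole. -/
theorem occ_Kbip {T : Bip L} {s t : X} (hst : s ≠ t) {ι : (Kbip E s t).Vert → T.Vert}
    (h : Occurrence T (Kbip E s t) ι) :
    (∀ ℓ x y, E ℓ x y → T.E ℓ (ι (kd s t x)) (ι (kd s t y))) ∧
    ∀ (Y : Type) (lv : L → Setoid Y) (f : X → Y), gMor E lv f →
      ∃ F : T.Vert → Y, T.IsMor lv F ∧ ∀ x, F (ι (kd s t x)) = f x := by
  refine ⟨fun ℓ x y e => h.1 ℓ _ _ ?_, fun Y lv f hf => ?_⟩
  · change E ℓ (ke s t (kd s t _)) (ke s t (kd s t _))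
    rwa [ke_kd, ke_kd]
  · obtain ⟨F, hF, hF'⟩ := h.2 Y lv (fun w => f (ke s t w)) (fun ℓ u v e => hf ℓ _ _ e)
    exact ⟨F, hF, fun x => (hF' (kd s t x)).trans (congrArg f (ke_kd s t x))⟩

end K

/-- The data extracted from a representation of the lattice on the base letters. -/
structure BaseData (L : Type u) [Lattice L] (J0 : Set L) where
  X : Type
  fin : Finite X
  E : L → X → X → Prop
  ss : L → X
  tt : L → X
  ne : ∀ c ∈ J0, ss c ≠ tt c
  edge : ∀ c ∈ J0, E c (ss c) (tt c)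
  lab : ∀ ℓ x y, E ℓ x y → ℓ ∈ J0
  PL : ∀ θ, gClosed E θ → ∀ x y, θ x y → gEC E θ x y
  gen : ∀ θ, gClosed E θ → ∀ ℓ x y, E ℓ x y → θ x y → gconn E ℓ ≤ θ
  join : ∀ c ∈ J0, ∀ (C : Finset L) (hC : C.Nonempty), (∀ c' ∈ C, c' ∈ J0) → c ≤ C.sup' hC id →
    ∀ θ, gClosed E θ → (∀ c' ∈ C, gconn E c' ≤ θ) → gconn E c ≤ θ
  sep : ∀ c ∈ J0, ∀ t, ¬ c ≤ t → ¬ gconn E t (ss c) (tt c)

section S

variable [Lattice L] {J0 : Set L} (𝔅 : BaseData L J0)

/-- The source of the kid number `j` of the symmetrised base gadget. -/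
def pS (c : L) (j : ℕ) : 𝔅.X := if j % 2 = 0 then 𝔅.ss c else 𝔅.tt c

/-- The target of the kid number `j` of the symmetrised base gadget. -/
def pT (c : L) (j : ℕ) : 𝔅.X := if j % 2 = 0 then 𝔅.tt c else 𝔅.ss c

/-- The kids of the symmetrised base gadget. -/
noncomputable def kidS (c : L) (_ : Fin 1) (j : Fin (5 + 1)) : Bip L :=
  have := 𝔅.fin
  Kbip 𝔅.E (pS 𝔅 c j) (pT 𝔅 c j)

/-- The symmetrised base gadget of a base letter. -/
noncomputable def S (c : L) : Bip L := node (len := fun _ => 5) (kidS 𝔅 c) c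

/-- Images of the terminals in a space. -/
def RR {Y : Type} (lv : L → Setoid Y) (c : L) (u v : Y) : Prop :=
  ∃ f : 𝔅.X → Y, gMor 𝔅.E lv f ∧ f (𝔅.ss c) = u ∧ f (𝔅.tt c) = v

theorem RR.refl {Y : Type} (lv : L → Setoid Y) (c : L) (x : Y) : RR 𝔅 lv c x x :=
  ⟨fun _ => x, fun ℓ _ _ _ => (lv ℓ).refl' x, rfl, rfl⟩

variable {𝔅} {c : L}

theorem pS_ne_pT (hc : c ∈ J0) (j : ℕ) : pS 𝔅 c j ≠ pT 𝔅 c j := by
  unfold pS pT
  split_ifs
  · exact 𝔅.ne c hc
  · exact (𝔅.ne c hc).symm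

theorem sem_kidS (hc : c ∈ J0) {i : Fin 1} {j : Fin (5 + 1)} {Y : Type} {lv : L → Setoid Y} {u v : Y} :
    (kidS 𝔅 c i j).Sem lv u v ↔
      (j.val % 2 = 0 ∧ RR 𝔅 lv c u v) ∨ (j.val % 2 ≠ 0 ∧ RR 𝔅 lv c v u) := by
  have := 𝔅.fin
  unfold kidS
  simp only
  rw [sem_Kbip (pS_ne_pT hc j)]
  unfold pS pT RR
  by_cases h : j.val % 2 = 0
  · simp only [h, if_true, true_and, ne_eq, not_true_eq_false, false_and, or_false]
  · simp only [h, if_false, false_and, ne_eq, not_false_eq_true, true_and, false_or]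
    constructor
    · rintro ⟨f, h1, h2, h3⟩
      exact ⟨f, h1, h3, h2⟩
    · rintro ⟨f, h1, h2, h3⟩
      exact ⟨f, h1, h3, h2⟩

theorem sem_S (hc : c ∈ J0) {Y : Type} {lv : L → Setoid Y} {u v : Y} :
    (S 𝔅 c).Sem lv u v ↔ lv c u v ∧ ∃ y : ℕ → Y, y 0 = u ∧ y 6 = v ∧ ∀ j, j < 6 →
      (j % 2 = 0 ∧ RR 𝔅 lv c (y j) (y (j + 1))) ∨ (j % 2 ≠ 0 ∧ RR 𝔅 lv c (y (j + 1)) (y j)) := by
  unfold S
  rw [sem_node]
  constructor
  · rintro ⟨h1, h2⟩
    obtain ⟨y, h3, h4, h5⟩ := h2 ⟨0, by norm_num⟩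
    refine ⟨h1, y, h3, h4, fun j hj => ?_⟩
    exact sem_kidS hc |>.1 (h5 ⟨j, hj⟩)
  · rintro ⟨h1, y, h3, h4, h5⟩
    exact ⟨h1, fun _ => ⟨y, h3, h4, fun j => sem_kidS hc |>.2 (h5 j j.2)⟩⟩

theorem RR_edge (hc : c ∈ J0) {Y : Type} {lv : L → Setoid Y} {u v : Y} (h : RR 𝔅 lv c u v) :
    lv c u v := by
  obtain ⟨f, hf, rfl, rfl⟩ := h
  exact hf _ _ _ (𝔅.edge c hc)

theorem sem_S_of_RR (hc : c ∈ J0) {Y : Type} {lv : L → Setoid Y} {u v : Y}
    (h : RR 𝔅 lv c u v) : (S 𝔅 c).Sem lv u v := by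
  refine (sem_S hc).2 ⟨RR_edge hc h, fun j => if j = 0 then u else v, by simp, by simp, fun j hj => ?_⟩
  by_cases h0 : j = 0
  · subst h0
    left
    exact ⟨rfl, by simpa using h⟩
  · by_cases h2 : j % 2 = 0
    · left
      refine ⟨h2, ?_⟩
      simp only [if_neg h0, Nat.add_eq_zero_iff, one_ne_zero, and_false, if_false]
      exact RR.refl 𝔅 lv c v
    · right
      refine ⟨h2, ?_⟩
      simp only [if_neg h0, Nat.add_eq_zero_iff, one_ne_zero, and_false, if_false]
      exact RR.refl 𝔅 lv c v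

theorem symP_S (hc : c ∈ J0) : (S 𝔅 c).SymP := by
  intro Y lv u v h
  obtain ⟨h1, y, h0, h6, hs⟩ := (sem_S hc).1 h
  refine (sem_S hc).2 ⟨(lv c).symm' h1, fun j => y (6 - j), by simpa using h6, by simpa using h0,
    fun j hj => ?_⟩
  have hs' := hs (5 - j) (by omega)
  rw [show 5 - j + 1 = 6 - j by omega, show 5 - j = 6 - (j + 1) by omega] at hs'
  by_cases h2 : j % 2 = 0
  · left
    refine ⟨h2, ?_⟩
    rcases hs' with ⟨h3, h4⟩ | ⟨h3, h4⟩
    · omega
    · exact h4
  · right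
    refine ⟨h2, ?_⟩
    rcases hs' with ⟨h3, h4⟩ | ⟨h3, h4⟩
    · exact h4
    · omega

theorem sem_S_of_RR' (hc : c ∈ J0) {Y : Type} {lv : L → Setoid Y} {u v : Y}
    (h : RR 𝔅 lv c v u) : (S 𝔅 c).Sem lv u v :=
  symP_S hc Y lv _ _ (sem_S_of_RR hc h)

/-- A pair of the gadget is a walk of six steps of images of the terminals. -/
theorem S_walk (hc : c ∈ J0) {Y : Type} {lv : L → Setoid Y} {u v : Y} (h : (S 𝔅 c).Sem lv u v) :
    Walk (fun x y => RR 𝔅 lv c x y ∨ RR 𝔅 lv c y x) 6 u v := by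
  obtain ⟨_, y, h0, h6, hs⟩ := (sem_S hc).1 h
  refine ⟨y, h0, h6, fun j hj => ?_⟩
  rcases hs j hj with ⟨_, h4⟩ | ⟨_, h4⟩
  · exact Or.inl h4
  · exact Or.inr h4

theorem tw_kidS (hc : c ∈ J0) {i i' : Fin 1} {j j' : Fin (5 + 1)}
    (h : j.val % 2 ≠ j'.val % 2) : (kidS 𝔅 c i j).Tw (kidS 𝔅 c i' j') := by
  intro Y lv u v hs
  rw [sem_kidS hc] at hs ⊢
  rcases hs with ⟨h1, h2⟩ | ⟨h1, h2⟩
  · right
    exact ⟨by omega, h2⟩
  · left
    exact ⟨by omega, h2⟩

theorem PL_S (hc : c ∈ J0) : (S 𝔅 c).PLProp := by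
  have := 𝔅.fin
  refine PL_node (fun i j => ?_) (fun i p r => ?_) (fun i k l hkl hl => ?_)
  · exact PL_Kbip (pS_ne_pT hc j) 𝔅.PL
  · -- a position of the other parity, different from `r`
    have hp := p.2
    have hr := r.2
    change (p : ℕ) < 6 at hp
    change (r : ℕ) < 6 at hr
    by_cases hpar : (p : ℕ) % 2 = 0
    · by_cases hr1 : (r : ℕ) = 1
      · exact ⟨⟨3, by norm_num⟩, fun h => by have := congrArg Fin.val h; simp at this; omega,
          fun h => by have := congrArg Fin.val h; simp at this; omega, tw_kidS hc (by simp; omega)⟩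
      · exact ⟨⟨1, by norm_num⟩, fun h => by have := congrArg Fin.val h; simp at this; omega,
          fun h => by have := congrArg Fin.val h; simp at this; omega, tw_kidS hc (by simp; omega)⟩
    · by_cases hr1 : (r : ℕ) = 0
      · exact ⟨⟨2, by norm_num⟩, fun h => by have := congrArg Fin.val h; simp at this; omega,
          fun h => by have := congrArg Fin.val h; simp at this; omega, tw_kidS hc (by simp; omega)⟩
      · exact ⟨⟨0, by norm_num⟩, fun h => by have := congrArg Fin.val h; simp at this; omega,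
          fun h => by have := congrArg Fin.val h; simp at this; omega, tw_kidS hc (by simp; omega)⟩
  · change l ≤ 6 at hl
    by_cases h1 : l = k + 1
    · left
      intro p hp1 hp2
      have hp3 : (p : ℕ) = k := by omega
      have hp := p.2
      change (p : ℕ) < 6 at hp
      by_cases hk : k = 5
      · exact ⟨⟨4, by norm_num⟩, by simp; omega, tw_kidS hc (by simp; omega)⟩
      · exact ⟨⟨k + 1, by change k + 1 < 6; omega⟩, by simp; omega, tw_kidS hc (by simp; omega)⟩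
    · right
      intro p hp1
      have hp := p.2
      change (p : ℕ) < 6 at hp
      by_cases hpar : ((p : ℕ) % 2 = k % 2)
      · exact ⟨⟨k + 1, by change k + 1 < 6; omega⟩, by simp; omega, tw_kidS hc (by simp; omega)⟩
      · exact ⟨⟨k, by change k < 6; omega⟩, by simp; omega, tw_kidS hc (by simp; omega)⟩

end S

end Vale.Agent.P183.Lift
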