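import Vale.Agent.P183.Lift.Top
import Vale.Agent.P183.Defs

namespace Vale.Agent.P183.Lift

open Relation

universe u

section cong

variable {A : Type} {n : ℕ} {ar : Fin n → ℕ} {op : ∀ i, (Fin (ar i) → A) → A}

/-- An equivalence closed under all maps preserving all congruences is a congruence. -/
theorem cong_of_closed {θ : Setoid A}
    (h : ∀ f : A → A, (∀ ψ : Setoid A, IsCongruence ar op ψ → ∀ u v, ψ u v → ψ (f u) (f v)) →
      ∀ u v, θ u v → θ (f u) (f v)) : IsCongruence ar op θ := by
  classical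
  intro i x y hxy
  let w : ℕ → Fin (ar i) → A := fun k j => if (j : ℕ) < k then y j else x j
  have hstep : ∀ k, k < ar i → θ (op i (w k)) (op i (w (k + 1))) := by
    intro k hk
    let f : A → A := fun z => op i (fun j => if (j : ℕ) < k then y j else
      if (j : ℕ) = k then z else x j)
    have hf : ∀ ψ : Setoid A, IsCongruence ar op ψ → ∀ u v, ψ u v → ψ (f u) (f v) := by
      intro ψ hψ u v huv
      refine hψ i _ _ (fun j => ?_)
      split_ifs
      · exact ψ.refl' _
      · exact huv
      · exact ψ.refl' _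
    have h1 := h f hf _ _ (hxy ⟨k, hk⟩)
    have e1 : f (x ⟨k, hk⟩) = op i (w k) := by
      simp only [f, w]
      congr 1
      funext j
      by_cases h2 : (j : ℕ) < k
      · rw [if_pos h2, if_pos h2]
      · rw [if_neg h2, if_neg h2]
        by_cases h3 : (j : ℕ) = k
        · rw [if_pos h3, show j = ⟨k, hk⟩ from Fin.ext h3]
        · rw [if_neg h3]
    have e2 : f (y ⟨k, hk⟩) = op i (w (k + 1)) := by
      simp only [f, w]
      congr 1
      funext j
      by_cases h2 : (j : ℕ) < k
      · rw [if_pos h2, if_pos (by omega)]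
      · rw [if_neg h2]
        by_cases h3 : (j : ℕ) = k
        · rw [if_pos h3, if_pos (by omega), show j = ⟨k, hk⟩ from Fin.ext h3]
        · rw [if_neg h3, if_neg (by omega)]
    rw [e1, e2] at h1
    exact h1
  have key : ∀ k, k ≤ ar i → θ (op i (w 0)) (op i (w k)) := by
    intro k
    induction k with
    | zero => intro _; exact θ.refl' _
    | succ k ih =>
      intro hk
      exact θ.trans' (ih (by omega)) (hstep k (by omega))
  have h0 : w 0 = x := by
    funext j
    simp [w]
  have hl : w (ar i) = y := by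
    funext j
    simp [w, j.2]
  have := key (ar i) le_rfl
  rwa [h0, hl] at this

end cong

section basedata

variable {L : Type u} [Lattice L] [BoundedOrder L] [Fintype L] {J0 : Set L}

/-- The join closure of a set of elements. -/
abbrev JClosure (J0 : Set L) : Type u := {x : L // ∃ s : Set L, s ⊆ J0 ∧ IsLUB s x}

theorem isLUB_finset_sup' (T : Finset L) : IsLUB (↑T : Set L) (T.sup id) :=
  ⟨fun x hx => Finset.le_sup (f := id) hx, fun b hb => Finset.sup_le fun x hx => hb hx⟩

/-- Finite joins of base elements lie in the join closure. -/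
def jsup (T : Finset L) (hT : ∀ c ∈ T, c ∈ J0) : JClosure J0 :=
  ⟨T.sup id, ↑T, fun c hc => hT c hc, isLUB_finset_sup' T⟩

theorem jclosure_finset (x : JClosure J0) : ∃ T : Finset L, (∀ c ∈ T, c ∈ J0) ∧ x.1 = T.sup id := by
  classical
  obtain ⟨s, hs, hx⟩ := x.2
  refine ⟨s.toFinset, fun c hc => hs (Set.mem_toFinset.mp hc), ?_⟩
  have h1 : IsLUB (↑s.toFinset : Set L) (s.toFinset.sup id) := isLUB_finset_sup' _
  rw [Set.coe_toFinset] at h1
  exact hx.unique h1

variable {A : Type} [Finite A] [Nonempty A] {n : ℕ} {ar : Fin n → ℕ}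
  {op : ∀ i, (Fin (ar i) → A) → A}
  (ψ : JClosure J0 ≃o {θ : Setoid A // IsCongruence ar op θ})

/-- The setoid of an element of the join closure. -/
def phi (x : JClosure J0) : Setoid A := (ψ x).1

theorem phi_le {x y : JClosure J0} : phi ψ x ≤ phi ψ y ↔ x ≤ y := ψ.le_iff_le

theorem phi_surj {θ : Setoid A} (h : IsCongruence ar op θ) : ∃ x, phi ψ x = θ := by
  obtain ⟨x, hx⟩ := ψ.surjective ⟨θ, h⟩
  exact ⟨x, congrArg Subtype.val hx⟩

theorem phi_cong (x : JClosure J0) : IsCongruence ar op (phi ψ x) := (ψ x).2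

include ψ in
theorem exists_d (u v : A) : ∃ x : JClosure J0, ∀ t : JClosure J0, phi ψ t u v ↔ x ≤ t := by
  let cg : Setoid A :=
    { r := fun a b => ∀ θ : Setoid A, IsCongruence ar op θ → θ u v → θ a b
      iseqv := ⟨fun a θ _ _ => θ.refl' a, fun h θ h1 h2 => θ.symm' (h θ h1 h2),
        fun h h' θ h1 h2 => θ.trans' (h θ h1 h2) (h' θ h1 h2)⟩ }
  have hcg : IsCongruence ar op cg := by
    intro i x y hxy θ h1 h2
    exact h1 i x y (fun j => hxy j θ h1 h2)
  obtain ⟨x, hx⟩ := phi_surj ψ hcg
  refine ⟨x, fun t => ⟨fun h => ?_, fun h => ?_⟩⟩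
  · rw [← phi_le ψ, hx]
    intro a b hab
    exact hab _ (phi_cong ψ t) h
  · refine (phi_le ψ).2 h ?_
    rw [hx]
    intro θ _ h2
    exact h2

/-- The graph of a representation. -/
def repE (d : A → A → JClosure J0) (ℓ : L) (u v : A) : Prop := ℓ ∈ J0 ∧ (d u v).1 = ℓ

variable (hirr : ∀ c ∈ J0, SupIrred c)

/-- An element of `J0` as an element of the join closure. -/
def jof (c : L) (hc : c ∈ J0) : JClosure J0 :=
  ⟨c, {c}, fun _ h => by rw [Set.mem_singleton_iff.mp h]; exact hc, isLUB_singleton⟩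

include hirr in
theorem exists_pair {d : A → A → JClosure J0} (hd : ∀ u v t, phi ψ t u v ↔ d u v ≤ t)
    {c : L} (hc : c ∈ J0) : ∃ u v, (d u v).1 = c := by
  classical
  by_contra hno
  have hno' : ∀ u v, (d u v).1 ≠ c := fun u v h => hno ⟨u, v, h⟩
  have := Fintype.ofFinite A
  -- the join of all base elements strictly below `c` that occur
  let T : Finset L := Finset.univ.filter (fun e => e ∈ J0 ∧ e < c)
  have hT : ∀ e ∈ T, e ∈ J0 := fun e he => (Finset.mem_filter.mp he).2.1
  let e0 := jsup T hT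
  have hphi : phi ψ (jof c hc) ≤ phi ψ e0 := by
    intro u v huv
    rw [hd] at huv ⊢
    obtain ⟨S, hS, hS'⟩ := jclosure_finset (d u v)
    have hlt : (d u v).1 < c := lt_of_le_of_ne huv (hno' u v)
    change (d u v).1 ≤ T.sup id
    rw [hS']
    refine Finset.sup_le (fun e he => Finset.le_sup (f := id) ?_)
    refine Finset.mem_filter.mpr ⟨Finset.mem_univ _, hS e he, ?_⟩
    refine lt_of_le_of_lt ?_ hlt
    rw [hS']
    exact Finset.le_sup (f := id) he
  have hle : c ≤ T.sup id := (phi_le ψ).1 hphi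
  have hle' : T.sup id ≤ c := Finset.sup_le fun e he => (Finset.mem_filter.mp he).2.2.le
  have heq : T.sup id = c := le_antisymm hle' hle
  obtain ⟨e, he, h2⟩ := (hirr c hc).finset_sup_eq heq
  have h3 := (Finset.mem_filter.mp he).2.2
  exact absurd h2 (ne_of_lt h3)

/-- The connectivity of the graph of a representation is the representation. -/
theorem conn_eq {d : A → A → JClosure J0} (hd : ∀ u v t, phi ψ t u v ↔ d u v ≤ t)
    (t : JClosure J0) : gconn (repE d) t.1 = phi ψ t := by
  classical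
  induction' hn : hgt t.1 using Nat.strong_induction_on with m ih generalizing t
  have hih : ∀ s : JClosure J0, s < t → gconn (repE d) s.1 = phi ψ s := by
    intro s hs
    exact ih (hgt s.1) (by rw [← hn]; exact hgt_lt hs) s rfl
  -- the easy inclusion
  have h1 : gconn (repE d) t.1 ≤ phi ψ t := by
    intro u v huv
    change EqvGen _ u v at huv
    induction huv with
    | rel _ _ h =>
      obtain ⟨ℓ, hℓ, -, e⟩ := h
      rw [hd]
      change (d _ _).1 ≤ t.1
      rw [e]
      exact hℓ
    | refl x => exact (phi ψ t).refl' _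
    | symm _ _ _ ih => exact (phi ψ t).symm' ih
    | trans _ _ _ _ _ ih1 ih2 => exact (phi ψ t).trans' ih1 ih2
  refine le_antisymm h1 ?_
  by_cases ht : t.1 ∈ J0
  · intro u v huv
    rw [hd] at huv
    rcases lt_or_eq_of_le huv with h2 | h2
    · have h3 : phi ψ (d u v) u v := (hd u v _).2 le_rfl
      rw [← hih _ h2] at h3
      exact gconn_mono (show (d u v).1 ≤ t.1 from h2.le) h3
    · refine gconn_edge le_rfl (⟨ht, ?_⟩ : repE d t.1 u v)
      rw [h2]
  · -- all edges below `t` have a strictly smaller label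
    have hlab : ∀ ℓ (hℓ : ℓ ∈ J0), ℓ ≤ t.1 → jof ℓ hℓ < t := by
      intro ℓ hℓ hle
      refine lt_of_le_of_ne hle ?_
      intro h
      apply ht
      have : ℓ = t.1 := congrArg Subtype.val h
      rw [← this]
      exact hℓ
    have hcong : IsCongruence ar op (gconn (repE d) t.1) := by
      apply cong_of_closed
      intro f hf u v huv
      change EqvGen _ u v at huv
      induction huv with
      | rel _ _ h =>
        obtain ⟨ℓ, hℓ, hℓ0, e⟩ := h
        have h2 := hih _ (hlab ℓ hℓ0 hℓ)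
        have h3 : phi ψ (jof ℓ hℓ0) _ _ := (hd _ _ _).2 (show (d _ _).1 ≤ ℓ from e.le)
        have h4 := hf _ (phi_cong ψ (jof ℓ hℓ0)) _ _ h3
        rw [← h2] at h4
        exact gconn_mono hℓ h4
      | refl x => exact (gconn (repE d) t.1).refl' _
      | symm _ _ _ ih => exact (gconn (repE d) t.1).symm' ih
      | trans _ _ _ _ _ ih1 ih2 => exact (gconn (repE d) t.1).trans' ih1 ih2
    obtain ⟨t', ht'⟩ := phi_surj ψ hcong
    rw [← ht', phi_le]
    obtain ⟨T, hT, hT'⟩ := jclosure_finset t
    change t.1 ≤ t'.1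
    rw [hT']
    refine Finset.sup_le fun c hc => ?_
    have hct : c ≤ t.1 := by
      rw [hT']
      exact Finset.le_sup (f := id) hc
    have h2 := hih _ (hlab c (hT c hc) hct)
    have h3 : phi ψ (jof c (hT c hc)) ≤ phi ψ t' := by
      rw [← h2, ht']
      exact gconn_mono' _ _ _ hct
    exact (phi_le ψ).1 h3

/-- Closed equivalences of the graph of a representation are the setoids of the representation. -/
theorem closed_phi {d : A → A → JClosure J0} (hd : ∀ u v t, phi ψ t u v ↔ d u v ≤ t)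
    {θ : Setoid A} (hθ : gClosed (repE d) θ) : ∃ t, phi ψ t = θ := by
  refine phi_surj ψ (cong_of_closed fun f hf u v huv => hθ f ?_ u v huv)
  rintro ℓ a b ⟨hℓ, e⟩
  have h3 : phi ψ (jof ℓ hℓ) a b := (hd _ _ _).2 (show (d _ _).1 ≤ ℓ from e.le)
  have h4 := hf _ (phi_cong ψ (jof ℓ hℓ)) _ _ h3
  rw [← conn_eq ψ hd] at h4
  exact h4

include ψ hirr in
/-- The base data of a representation. -/
theorem exists_baseData : Nonempty (BaseData L J0) := by
  classical
  choose d hd using exists_d (J0 := J0) ψ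
  have hd' : ∀ u v t, phi ψ t u v ↔ d u v ≤ t := fun u v t => hd u v t
  have hpair : ∀ c : L, ∃ u v : A, c ∈ J0 → (d u v).1 = c := by
    intro c
    by_cases hc : c ∈ J0
    · obtain ⟨u, v, h⟩ := exists_pair ψ hirr hd' hc
      exact ⟨u, v, fun _ => h⟩
    · exact ⟨Classical.arbitrary A, Classical.arbitrary A, fun h => absurd h hc⟩
  choose ss tt hst using hpair
  -- the smallest element of the join closure
  let b0 : JClosure J0 := jsup ∅ (fun c hc => absurd hc (Finset.notMem_empty c))
  have hb0 : b0.1 = ⊥ := rfl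
  -- connectivity over all of `L`
  have hconnL : ∀ (t : L) u v, gconn (repE d) t u v →
      ∃ t' : JClosure J0, t'.1 ≤ t ∧ phi ψ t' u v := by
    intro t u v huv
    let T : Finset L := Finset.univ.filter (fun e => e ∈ J0 ∧ e ≤ t)
    let t' := jsup T (fun e he => (Finset.mem_filter.mp he).2.1)
    refine ⟨t', Finset.sup_le fun e he => (Finset.mem_filter.mp he).2.2, ?_⟩
    rw [← conn_eq ψ hd']
    change EqvGen _ u v at huv
    induction huv with
    | rel _ _ h =>
      obtain ⟨ℓ, hℓ, hℓ0, e⟩ := h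
      refine gconn_edge (Finset.le_sup (f := id) ?_) (⟨hℓ0, e⟩ : repE d ℓ _ _)
      exact Finset.mem_filter.mpr ⟨Finset.mem_univ _, hℓ0, hℓ⟩
    | refl x => exact (gconn (repE d) t'.1).refl' _
    | symm _ _ _ ih => exact (gconn (repE d) t'.1).symm' ih
    | trans _ _ _ _ _ ih1 ih2 => exact (gconn (repE d) t'.1).trans' ih1 ih2
  refine ⟨{ X := A, fin := inferInstance, E := repE d, ss := ss, tt := tt, ne := ?_, edge := ?_,
            lab := fun ℓ x y e => e.1, PL := ?_, gen := ?_, join := ?_, sep := ?_ }⟩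
  · intro c hc heq
    have h1 : phi ψ b0 (ss c) (tt c) := by
      rw [heq]
    rw [hd'] at h1
    have h2 : c ≤ ⊥ := by
      have h3 : (d (ss c) (tt c)).1 ≤ b0.1 := h1
      rwa [hst c hc] at h3
    exact (hirr c hc).1 (by rw [le_bot_iff.mp h2]; exact isMin_bot)
  · intro c hc
    exact ⟨hc, hst c hc⟩
  · intro θ hθ x y hxy
    obtain ⟨t, rfl⟩ := closed_phi ψ hd' hθ
    have h1 : gconn (repE d) t.1 x y := by
      rw [conn_eq ψ hd']
      exact hxy
    change EqvGen _ x y at h1
    change EqvGen _ x y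
    refine EqvGen.mono ?_ _ _ h1
    rintro a b ⟨ℓ, hℓ, e⟩
    refine ⟨⟨ℓ, e⟩, (hd' a b t).2 ?_⟩
    change (d a b).1 ≤ t.1
    rw [e.2]
    exact hℓ
  · intro θ hθ ℓ x y e hxy
    obtain ⟨t, rfl⟩ := closed_phi ψ hd' hθ
    have h1 : gconn (repE d) (jof ℓ e.1).1 = phi ψ (jof ℓ e.1) := conn_eq ψ hd' _
    change gconn (repE d) ℓ = phi ψ (jof ℓ e.1) at h1
    rw [h1, phi_le]
    have h2 := (hd' x y t).1 hxy
    have h3 : (d x y).1 ≤ t.1 := h2
    rw [e.2] at h3
    exact h3
  · intro c hc C hC hC0 hle θ hθ h1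
    obtain ⟨t, rfl⟩ := closed_phi ψ hd' hθ
    have h2 : gconn (repE d) (jof c hc).1 = phi ψ (jof c hc) := conn_eq ψ hd' _
    change gconn (repE d) c = phi ψ (jof c hc) at h2
    rw [h2, phi_le]
    change c ≤ t.1
    refine hle.trans (Finset.sup'_le _ _ fun c' hc' => ?_)
    have h3 : gconn (repE d) (jof c' (hC0 c' hc')).1 = phi ψ (jof c' (hC0 c' hc')) :=
      conn_eq ψ hd' _
    change gconn (repE d) c' = phi ψ (jof c' (hC0 c' hc')) at h3
    have h4 := h1 c' hc'
    rw [h3, phi_le] at h4
    exact h4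
  · intro c hc t hct h1
    obtain ⟨t', h2, h3⟩ := hconnL t _ _ h1
    rw [hd'] at h3
    have h4 : (d (ss c) (tt c)).1 ≤ t'.1 := h3
    rw [hst c hc] at h4
    exact hct (h4.trans h2)

end basedata

end Vale.Agent.P183.Lift
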