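import Vale.Agent.P183.Lift.Base

namespace Vale.Agent.P183.Lift

open Relation

universe u

variable {L : Type u} [Lattice L] [BoundedOrder L] [Fintype L] {J0 : Set L}

open Classical in
/-- The covers of `a` used by the gadget of `a`. -/
noncomputable def covs (ρ : L → ℕ) (a : L) : Finset (Finset L) :=
  Finset.univ.filter (fun C => ∃ hC : C.Nonempty, (∀ c ∈ C, SupIrred c ∧ ρ c < ρ a) ∧
    a ≤ C.sup' hC id)

open Classical in
noncomputable def hgt (a : L) : ℕ := (Finset.univ.filter (· ≤ a)).card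

noncomputable def Nf (K : ℕ) (a : L) : ℕ :=
  (2 * Fintype.card L + 36 * K * K + 6 * K + 3) ^ hgt a

theorem hgt_pos (a : L) : 0 < hgt a := by
  classical
  unfold hgt
  exact Finset.card_pos.mpr ⟨a, by simp⟩

theorem hgt_lt {a b : L} (h : a < b) : hgt a < hgt b := by
  classical
  unfold hgt
  apply Finset.card_lt_card
  refine ⟨fun x hx => ?_, fun hs => ?_⟩
  · simp only [Finset.mem_filter, Finset.mem_univ, true_and] at hx ⊢
    exact hx.trans h.le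
  · have : b ∈ Finset.univ.filter (· ≤ a) := hs (by simp)
    simp only [Finset.mem_filter, Finset.mem_univ, true_and] at this
    exact absurd (lt_of_lt_of_le h this) (lt_irrefl _)

theorem Nf_base (K : ℕ) (a : L) : 2 * Fintype.card L + 36 * K * K + 6 * K + 3 ≤ Nf K a := by
  unfold Nf
  have h := hgt_pos a
  calc 2 * Fintype.card L + 36 * K * K + 6 * K + 3
      = (2 * Fintype.card L + 36 * K * K + 6 * K + 3) ^ 1 := (pow_one _).symm
    _ ≤ _ := Nat.pow_le_pow_right (by omega) h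

theorem Nf_ge (K : ℕ) (a : L) : 3 ≤ Nf K a := by
  have := Nf_base K a
  omega

theorem Nf_pos (K : ℕ) (a : L) : 0 < Nf K a := by
  have := Nf_ge K a
  omega

theorem Nf_lt (K : ℕ) {a b : L} (h : a < b) (C : Finset L) : Nf K a * (2 * C.card) ≤ Nf K b := by
  unfold Nf
  have h1 := hgt_lt h
  have h2 : C.card ≤ Fintype.card L := Finset.card_le_univ C
  set B := 2 * Fintype.card L + 36 * K * K + 6 * K + 3 with hB
  calc B ^ hgt a * (2 * C.card) ≤ B ^ hgt a * B := Nat.mul_le_mul_left _ (by omega)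
    _ = B ^ (hgt a + 1) := (pow_succ _ _).symm
    _ ≤ _ := Nat.pow_le_pow_right (by omega) h1

variable (𝔅 : BaseData L J0) (ρ : L → ℕ) (K : ℕ)

open Classical in
/-- The gadget of `a`. -/
noncomputable def G (a : L) : Bip L :=
  if a ∈ J0 then S 𝔅 a else
  mk a (covs ρ a) (Nf K a)
    (fun c => if h : ρ c < ρ a then G c else ⟨Empty, inferInstance, fun _ _ _ => False⟩)
termination_by ρ a
decreasing_by exact h

theorem mem_covs {a : L} {C : Finset L} : C ∈ covs ρ a ↔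
    ∃ hC : C.Nonempty, (∀ c ∈ C, SupIrred c ∧ ρ c < ρ a) ∧ a ≤ C.sup' hC id := by
  classical
  unfold covs
  simp

theorem covs_ne {a : L} {C : Finset L} (h : C ∈ covs ρ a) : C.Nonempty :=
  ((mem_covs ρ).1 h).1

theorem covs_letter {a : L} {C : Finset L} (h : C ∈ covs ρ a) {c : L} (hc : c ∈ C) :
    SupIrred c ∧ ρ c < ρ a := by
  obtain ⟨_, h1, _⟩ := (mem_covs ρ).1 h
  exact h1 c hc

theorem G_base {a : L} (ha : a ∈ J0) : G 𝔅 ρ K a = S 𝔅 a := by
  classical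
  rw [G, if_pos ha]

theorem G_top {a : L} (ha : a ∉ J0) : G 𝔅 ρ K a = mk a (covs ρ a) (Nf K a) (G 𝔅 ρ K) := by
  classical
  rw [G, if_neg ha]
  apply mk_congr (fun C hC => covs_ne ρ hC)
  intro C hC c hc
  rw [dif_pos (covs_letter ρ hC hc).2]

variable {𝔅 ρ K}

theorem sem_G_top {a : L} (ha : a ∉ J0) {Y : Type} {lv : L → Setoid Y} {u v : Y} :
    (G 𝔅 ρ K a).Sem lv u v ↔ lv a u v ∧
      ∀ C ∈ covs ρ a, Chain (fun j => (G 𝔅 ρ K (wd C j)).Sem lv) 0 (Nf K a * (2 * C.card)) u v := by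
  rw [G_top 𝔅 ρ K ha]
  exact sem_mk (Nf_pos K a) (fun C hC => covs_ne ρ hC)

theorem sem_G_base {a : L} (ha : a ∈ J0) {Y : Type} {lv : L → Setoid Y} {u v : Y} :
    (G 𝔅 ρ K a).Sem lv u v ↔ (S 𝔅 a).Sem lv u v := by
  rw [G_base 𝔅 ρ K ha]

theorem sem_G_root {a : L} {Y : Type} {lv : L → Setoid Y} {u v : Y} (h : (G 𝔅 ρ K a).Sem lv u v) :
    lv a u v := by
  classical
  by_cases ha : a ∈ J0
  · rw [G_base 𝔅 ρ K ha] at h
    exact ((sem_S ha).1 h).1
  · exact (sem_G_top ha |>.1 h).1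

theorem symP_G (a : L) : (G 𝔅 ρ K a).SymP := by
  classical
  induction' hn : ρ a using Nat.strong_induction_on with n ih generalizing a
  by_cases ha : a ∈ J0
  · rw [G_base 𝔅 ρ K ha]
    exact symP_S ha
  intro Y lv u v h
  obtain ⟨h1, h2⟩ := sem_G_top ha |>.1 h
  refine sem_G_top ha |>.2 ⟨(lv a).symm' h1, fun C hC => ?_⟩
  obtain ⟨y, h0, hl, hs⟩ := h2 C hC
  have hne := covs_ne ρ hC
  refine ⟨fun j => y (Nf K a * (2 * C.card) - j), ?_, ?_, fun j _ hj => ?_⟩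
  · simpa using hl
  · simpa using h0
  · have hj' : Nf K a * (2 * C.card) - 1 - j < Nf K a * (2 * C.card) := by omega
    have h3 := hs _ (Nat.zero_le _) hj'
    simp only at h3
    rw [wd_pal hne hj] at h3
    have h4 := ih (ρ (wd C j)) (by rw [← hn]; exact (covs_letter ρ hC (wd_mem hne j)).2) _ rfl
      Y lv _ _ h3
    simp only
    rw [show Nf K a * (2 * C.card) - 1 - j + 1 = Nf K a * (2 * C.card) - j by omega,
      show Nf K a * (2 * C.card) - 1 - j = Nf K a * (2 * C.card) - (j + 1) by omega] at h4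
    exact h4

theorem PL_G (a : L) : (G 𝔅 ρ K a).PLProp := by
  classical
  induction' hn : ρ a using Nat.strong_induction_on with n ih generalizing a
  by_cases ha : a ∈ J0
  · rw [G_base 𝔅 ρ K ha]
    exact PL_S ha
  rw [G_top 𝔅 ρ K ha]
  exact PL_mk (Nf_ge K a) (fun C hC => covs_ne ρ hC)
    (fun C hC c hc => ih (ρ c) (by rw [← hn]; exact (covs_letter ρ hC hc).2) c rfl)
    (fun C _ c _ => symP_G c)

theorem wd_sem_period {g : L → Bip L} {Y : Type} {lv : L → Setoid Y} (C : Finset L) (j : ℕ) :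
    (fun j => (g (wd C j)).Sem lv) (j + 2 * C.card) = (fun j => (g (wd C j)).Sem lv) j := by
  simp only [wd_period]

/-- A walk through the letters of `C` gives a chain along the word of `C`. -/
theorem walk_chain {Y : Type} {lv : L → Setoid Y} {C : Finset L} {g : L → Bip L} {M N : ℕ}
    (hMN : M ≤ N) {u v : Y} (h : Walk (fun x y => ∃ c ∈ C, (g c).Sem lv x y) M u v) :
    Chain (fun j => (g (wd C j)).Sem lv) 0 (N * (2 * C.card)) u v := by
  refine Walk.chain (fun _ x => Bip.Sem.refl _ lv x) (wd_sem_period C) ?_ hMN h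
  rintro x y ⟨c, hc, hs⟩
  obtain ⟨e, he, rfl⟩ := wd_surj hc
  exact ⟨e, he, hs⟩

/-- One letter of a period suffices for a single step. -/
theorem chain_letter' {g : L → Bip L} {Y : Type} {lv : L → Setoid Y} {C : Finset L} {c : L}
    (hc : c ∈ C) {N : ℕ} (hN : 0 < N) {u v : Y} (h : (g c).Sem lv u v) :
    Chain (fun j => (g (wd C j)).Sem lv) 0 (N * (2 * C.card)) u v :=
  walk_chain (M := 1) hN (Walk.of_rel ⟨c, hc, h⟩)

/-- A chain along a word gives a walk through the letters. -/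
theorem chain_walk {Y : Type} {lv : L → Setoid Y} {C : Finset L} (hC : C.Nonempty) {g : L → Bip L}
    {M : ℕ} {u v : Y} (h : Chain (fun j => (g (wd C j)).Sem lv) 0 M u v) :
    Walk (fun x y => ∃ c ∈ C, (g c).Sem lv x y) M u v := by
  obtain ⟨y, h0, h1, hs⟩ := h
  exact ⟨y, h0, h1, fun i hi => ⟨_, wd_mem hC i, hs i (Nat.zero_le _) hi⟩⟩

section base

variable (𝔅)

/-- The generators of the congruence generated by the terminals of the letters `C`. -/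
def Gen (C : Finset L) (x y : 𝔅.X) : Prop :=
  ∃ c' ∈ C, ∃ f : 𝔅.X → 𝔅.X, gMor 𝔅.E (gconn 𝔅.E) f ∧
    ((x = f (𝔅.ss c') ∧ y = f (𝔅.tt c')) ∨ (y = f (𝔅.ss c') ∧ x = f (𝔅.tt c')))

variable {𝔅}

theorem gen_symm (C : Finset L) (x y : 𝔅.X) (h : Gen 𝔅 C x y) : Gen 𝔅 C y x := by
  obtain ⟨c', hc', f, hf, h1⟩ := h
  exact ⟨c', hc', f, hf, h1.symm⟩

theorem isMor_gconn_id : gMor 𝔅.E (gconn 𝔅.E) (id : 𝔅.X → 𝔅.X) :=
  fun _ _ _ e => gconn_edge le_rfl e

theorem bc_exists {c : L} (hc : c ∈ J0) {C : Finset L} (hC : C.Nonempty) (hC0 : ∀ c' ∈ C, c' ∈ J0)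
    (hle : c ≤ C.sup' hC id) : ∃ n, Walk (Gen 𝔅 C) n (𝔅.ss c) (𝔅.tt c) := by
  let θ : Setoid 𝔅.X := EqvGen.setoid (Gen 𝔅 C)
  have hcl : gClosed 𝔅.E θ := by
    intro f hf x y hxy
    change EqvGen _ x y at hxy
    change EqvGen _ _ _
    induction hxy with
    | rel _ _ h =>
      obtain ⟨c', hc', g, hg, h1⟩ := h
      refine EqvGen.rel _ _ ⟨c', hc', fun x => f (g x), ?_, ?_⟩
      · exact fun ℓ u v e => by
          have h2 := hg ℓ u v e
          -- morphisms preserve connectivity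
          exact gMor_conn (gconn_mono' 𝔅.E) hf h2
      · rcases h1 with ⟨rfl, rfl⟩ | ⟨rfl, rfl⟩
        · exact Or.inl ⟨rfl, rfl⟩
        · exact Or.inr ⟨rfl, rfl⟩
    | refl x => exact EqvGen.refl _
    | symm _ _ _ ih => exact EqvGen.symm _ _ ih
    | trans _ _ _ _ _ ih1 ih2 => exact EqvGen.trans _ _ _ ih1 ih2
  have h1 : ∀ c' ∈ C, gconn 𝔅.E c' ≤ θ := by
    intro c' hc'
    refine 𝔅.gen θ hcl c' _ _ (𝔅.edge c' (hC0 c' hc')) ?_
    exact EqvGen.rel _ _ ⟨c', hc', id, isMor_gconn_id, Or.inl ⟨rfl, rfl⟩⟩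
  have h2 := 𝔅.join c hc C hC hC0 hle θ hcl h1
  have h3 : θ (𝔅.ss c) (𝔅.tt c) := h2 (gconn_edge le_rfl (𝔅.edge c hc))
  exact walk_of_eqvGen (gen_symm C) h3

variable (𝔅) in
theorem exists_K : ∃ K : ℕ, ∀ c, c ∈ J0 → ∀ (C : Finset L) (hC : C.Nonempty), (∀ c' ∈ C, c' ∈ J0) →
    c ≤ C.sup' hC id → ∃ n, n ≤ K ∧ Walk (Gen 𝔅 C) n (𝔅.ss c) (𝔅.tt c) := by
  classical
  have h : ∀ p : L × Finset L, ∃ n, p.1 ∈ J0 → ∀ hC : p.2.Nonempty, (∀ c' ∈ p.2, c' ∈ J0) →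
      p.1 ≤ p.2.sup' hC id → Walk (Gen 𝔅 p.2) n (𝔅.ss p.1) (𝔅.tt p.1) := by
    intro p
    by_cases h1 : p.1 ∈ J0 ∧ ∃ hC : p.2.Nonempty, (∀ c' ∈ p.2, c' ∈ J0) ∧ p.1 ≤ p.2.sup' hC id
    · obtain ⟨h2, hC, h3, h4⟩ := h1
      obtain ⟨n, hn⟩ := bc_exists h2 hC h3 h4
      exact ⟨n, fun _ _ _ _ => hn⟩
    · exact ⟨0, fun h2 hC h3 h4 => absurd ⟨h2, hC, h3, h4⟩ h1⟩
  choose n hn using h
  refine ⟨Finset.univ.sup n, fun c hc C hC hC0 hle => ?_⟩
  exact ⟨n (c, C), Finset.le_sup (Finset.mem_univ _), hn (c, C) hc hC hC0 hle⟩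

/-- The bound on base walks. -/
def KBound (𝔅 : BaseData L J0) (K : ℕ) : Prop :=
  ∀ c, c ∈ J0 → ∀ (C : Finset L) (hC : C.Nonempty), (∀ c' ∈ C, c' ∈ J0) →
    c ≤ C.sup' hC id → ∃ n, n ≤ K ∧ Walk (Gen 𝔅 C) n (𝔅.ss c) (𝔅.tt c)

/-- Images of base walks. -/
theorem base_step (hK : KBound 𝔅 K) {Y : Type} {lv : L → Setoid Y}
    (hlv : ∀ s t, s ≤ t → lv s ≤ lv t) {c : L} (hc : c ∈ J0) {C : Finset L} (hC : C.Nonempty)
    (hC0 : ∀ c' ∈ C, c' ∈ J0) (hle : c ≤ C.sup' hC id) {u v : Y} (h : (S 𝔅 c).Sem lv u v) :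
    ∃ m, m ≤ 6 * K ∧ Walk (fun x y => ∃ c' ∈ C, (S 𝔅 c').Sem lv x y) m u v := by
  have hsym : ∀ x y, (∃ c' ∈ C, (S 𝔅 c').Sem lv x y) → ∃ c' ∈ C, (S 𝔅 c').Sem lv y x := by
    rintro x y ⟨c', hc', hs⟩
    exact ⟨c', hc', symP_S (hC0 c' hc') Y lv _ _ hs⟩
  have key : ∀ x y, RR 𝔅 lv c x y →
      ∃ m, m ≤ K ∧ Walk (fun x y => ∃ c' ∈ C, (S 𝔅 c').Sem lv x y) m x y := by
    rintro x y ⟨g, hg, rfl, rfl⟩
    obtain ⟨n, hn, w⟩ := hK c hc C hC hC0 hle
    refine ⟨n, hn, ?_⟩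
    obtain ⟨z, h0, h1, hs⟩ := w
    refine ⟨fun i => g (z i), by simp only [h0], by simp only [h1], fun i hi => ?_⟩
    obtain ⟨c', hc', f, hf, hcase⟩ := hs i hi
    refine ⟨c', hc', ?_⟩
    have hgf : gMor 𝔅.E lv (fun x => g (f x)) := gMor_comp hlv hg hf
    rcases hcase with ⟨h2, h3⟩ | ⟨h2, h3⟩
    · refine sem_S_of_RR (hC0 c' hc') ⟨fun x => g (f x), hgf, ?_, ?_⟩
      · simp only [h2]
      · simp only [h3]
    · refine sem_S_of_RR' (hC0 c' hc') ⟨fun x => g (f x), hgf, ?_, ?_⟩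
      · simp only [h2]
      · simp only [h3]
  have key2 : ∀ x y, (RR 𝔅 lv c x y ∨ RR 𝔅 lv c y x) →
      ∃ m, m ≤ K ∧ Walk (fun x y => ∃ c' ∈ C, (S 𝔅 c').Sem lv x y) m x y := by
    rintro x y (h1 | h1)
    · exact key x y h1
    · obtain ⟨m, hm, w⟩ := key y x h1
      exact ⟨m, hm, w.symm hsym⟩
  exact Walk.comp key2 (S_walk hc h)

end base

/-- The hypotheses on covers. -/
structure CoverHyp (J0 : Set L) (ρ : L → ℕ) : Prop where
  irr : ∀ c ∈ J0, SupIrred c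
  rk : ∀ c ∈ J0, ∀ a, a ∉ J0 → SupIrred a → ρ c < ρ a
  top : ∀ a : L, SupIrred a → a ∉ J0 → ∀ (B : Finset L) (hB : B.Nonempty),
    a ≤ B.sup' hB id → (∀ b ∈ B, ¬ a ≤ b) →
    ∃ (C : Finset L) (hC : C.Nonempty),
      (∀ c ∈ C, SupIrred c ∧ ρ c < ρ a ∧ ∃ b ∈ B, c ≤ b) ∧ a ≤ C.sup' hC id
  base : ∀ a ∈ J0, ∀ (B : Finset L) (hB : B.Nonempty),
    a ≤ B.sup' hB id → (∀ b ∈ B, ¬ a ≤ b) →
    ∃ (C : Finset L) (hC : C.Nonempty),
      (∀ c ∈ C, c ∈ J0 ∧ ∃ b ∈ B, c ≤ b) ∧ a ≤ C.sup' hC id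

theorem sup'_singleton_le {a c : L} (h : a ≤ c) :
    a ≤ ({c} : Finset L).sup' (Finset.singleton_nonempty c) id := by
  simpa using h

theorem wd_singleton (c : L) (j : ℕ) : wd ({c} : Finset L) j = c :=
  Finset.mem_singleton.mp (wd_mem (Finset.singleton_nonempty c) j)

/-- A lower gadget gives a walk through an upper base letter. -/
theorem walk_of_base_above (hc : CoverHyp J0 ρ) {a c : L} (ha : SupIrred a) (ha0 : a ∉ J0)
    (hc0 : c ∈ J0) (hac : a ≤ c) {Y : Type} {lv : L → Setoid Y} {u v : Y}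
    (h : (G 𝔅 ρ K a).Sem lv u v) :
    Walk (fun x y => (G 𝔅 ρ K c).Sem lv x y) (Nf K a * (2 * ({c} : Finset L).card)) u v := by
  have hC : ({c} : Finset L) ∈ covs ρ a := by
    refine (mem_covs ρ).2 ⟨Finset.singleton_nonempty c, fun d hd => ?_, sup'_singleton_le hac⟩
    rw [Finset.mem_singleton.mp hd]
    exact ⟨hc.irr c hc0, hc.rk c hc0 a ha0 ha⟩
  obtain ⟨y, h0, h1, hs⟩ := (sem_G_top ha0 |>.1 h).2 _ hC
  refine ⟨y, h0, h1, fun i hi => ?_⟩
  have := hs i (Nat.zero_le _) hi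
  simp only [wd_singleton] at this
  exact this

/-- The walk through the letters of a cover of a larger element. -/
theorem inc_walk (hc : CoverHyp J0 ρ) (hK : KBound 𝔅 K) {Y : Type} {lv : L → Setoid Y}
    (hlv : ∀ s t, s ≤ t → lv s ≤ lv t) {a a' : L} (ha' : SupIrred a') (hlt : a' < a) {C : Finset L}
    (hC : C.Nonempty) (hsup : a ≤ C.sup' hC id) (hlet : ∀ c ∈ C, SupIrred c)
    (ih : ∀ c ∈ C, c ∉ J0 → ∀ a'', SupIrred a'' → a'' ≤ c → ∀ u v, (G 𝔅 ρ K a'').Sem lv u v →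
      (G 𝔅 ρ K c).Sem lv u v) {u v : Y} (h : (G 𝔅 ρ K a').Sem lv u v) :
    ∃ n, n ≤ Nf K a ∧ Walk (fun x y => ∃ c ∈ C, (G 𝔅 ρ K c).Sem lv x y) n u v := by
  classical
  have hbase := Nf_base (L := L) K a
  have hle : a' ≤ C.sup' hC id := hlt.le.trans hsup
  by_cases hex : ∃ c ∈ C, a' ≤ c
  · obtain ⟨c, hc', hac⟩ := hex
    by_cases hc0 : c ∈ J0
    · by_cases ha0 : a' ∈ J0
      · -- both base
        rw [G_base 𝔅 ρ K ha0] at h
        obtain ⟨m, hm, w⟩ := base_step hK hlv ha0 (Finset.singleton_nonempty c)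
          (fun d hd => by rw [Finset.mem_singleton.mp hd]; exact hc0) (sup'_singleton_le hac) h
        refine ⟨m, by nlinarith, w.mono ?_⟩
        rintro x y ⟨d, hd, hs⟩
        rw [Finset.mem_singleton.mp hd] at hs
        exact ⟨c, hc', (sem_G_base hc0).2 hs⟩
      · have w := walk_of_base_above hc ha' ha0 hc0 hac h
        exact ⟨_, Nf_lt K hlt _, w.mono fun x y hs => ⟨c, hc', hs⟩⟩
    · exact ⟨1, by omega, Walk.of_rel ⟨c, hc', ih c hc' hc0 a' ha' hac u v h⟩⟩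
  · have hex' : ∀ b ∈ C, ¬ a' ≤ b := fun b hb hab => hex ⟨b, hb, hab⟩
    by_cases ha0 : a' ∈ J0
    · -- `a'` is a base letter
      obtain ⟨C', hC', h3, h4⟩ := hc.base a' ha0 C hC hle hex'
      rw [G_base 𝔅 ρ K ha0] at h
      obtain ⟨m, hm, w⟩ := base_step hK hlv ha0 hC' (fun d hd => (h3 d hd).1) h4 h
      have hstep : ∀ x y, (∃ c' ∈ C', (S 𝔅 c').Sem lv x y) → ∃ m', m' ≤ 6 * K + 1 ∧
          Walk (fun x y => ∃ c ∈ C, (G 𝔅 ρ K c).Sem lv x y) m' x y := by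
        rintro x y ⟨c', hc', hs⟩
        obtain ⟨hc'0, b, hb, hcb⟩ := h3 c' hc'
        by_cases hb0 : b ∈ J0
        · obtain ⟨m', hm', w'⟩ := base_step hK hlv hc'0 (Finset.singleton_nonempty b)
            (fun d hd => by rw [Finset.mem_singleton.mp hd]; exact hb0) (sup'_singleton_le hcb) hs
          refine ⟨m', by omega, w'.mono ?_⟩
          rintro x' y' ⟨d, hd, hs'⟩
          rw [Finset.mem_singleton.mp hd] at hs'
          exact ⟨b, hb, (sem_G_base hb0).2 hs'⟩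
        · refine ⟨1, by omega, Walk.of_rel ⟨b, hb, ih b hb hb0 c' (hc.irr c' hc'0) hcb _ _ ?_⟩⟩
          exact (sem_G_base hc'0).2 hs
      obtain ⟨m2, hm2, w2⟩ := Walk.comp hstep w
      refine ⟨m2, ?_, w2⟩
      have h5 : m * (6 * K + 1) ≤ 6 * K * (6 * K + 1) := Nat.mul_le_mul_right _ hm
      nlinarith
    · -- `a'` is a top letter
      obtain ⟨C', hC', h3, h4⟩ := hc.top a' ha' ha0 C hC hle hex'
      -- replace the letters below a base letter of `C` by that base letter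
      let g : L → L := fun c' => if h : ∃ c ∈ C, c ∈ J0 ∧ c' ≤ c then h.choose else c'
      have hg1 : ∀ c', c' ≤ g c' := by
        intro c'
        simp only [g]
        split_ifs with h
        · exact h.choose_spec.2.2
        · exact le_rfl
      let C'' : Finset L := C'.image g
      have hC''ne : C''.Nonempty := hC'.image g
      have hC''sup : a' ≤ C''.sup' hC''ne id := by
        refine h4.trans (Finset.sup'_le _ _ fun c' hc' => ?_)
        exact (hg1 c').trans (Finset.le_sup' id (Finset.mem_image_of_mem g hc'))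
      have hC''l : ∀ d ∈ C'', SupIrred d ∧ ρ d < ρ a' ∧ (d ∈ C ∨ ∃ c ∈ C, c ∉ J0 ∧ d ≤ c) := by
        intro d hd
        obtain ⟨c', hc', rfl⟩ := Finset.mem_image.mp hd
        simp only [g]
        split_ifs with h
        · obtain ⟨h5, h6, _⟩ := h.choose_spec
          exact ⟨hc.irr _ h6, hc.rk _ h6 a' ha0 ha', Or.inl h5⟩
        · obtain ⟨h5, h6, b, hb, hcb⟩ := h3 c' hc'
          refine ⟨h5, h6, Or.inr ⟨b, hb, fun hb0 => h ⟨b, hb, hb0, hcb⟩, hcb⟩⟩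
      have hmem : C'' ∈ covs ρ a' :=
        (mem_covs ρ).2 ⟨hC''ne, fun d hd => ⟨(hC''l d hd).1, (hC''l d hd).2.1⟩, hC''sup⟩
      have hch := (sem_G_top ha0 |>.1 h).2 _ hmem
      have w := chain_walk hC''ne hch
      refine ⟨_, Nf_lt K hlt C'', w.mono ?_⟩
      rintro x y ⟨d, hd, hs⟩
      obtain ⟨h5, -, h7⟩ := hC''l d hd
      rcases h7 with h7 | ⟨c, hc1, hc2, hc3⟩
      · exact ⟨d, h7, hs⟩
      · exact ⟨c, hc1, ih c hc1 hc2 d h5 hc3 _ _ hs⟩

/-- The inclusion of gadgets below a top letter. -/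
theorem inc (hc : CoverHyp J0 ρ) (hK : KBound 𝔅 K) {Y : Type} {lv : L → Setoid Y}
    (hlv : ∀ s t, s ≤ t → lv s ≤ lv t) (a : L) (ha : a ∉ J0) (a' : L) (ha' : SupIrred a')
    (hle : a' ≤ a) (u v : Y) (h : (G 𝔅 ρ K a').Sem lv u v) : (G 𝔅 ρ K a).Sem lv u v := by
  induction' hn : ρ a using Nat.strong_induction_on with n ih generalizing a a' u v
  by_cases heq : a' = a
  · subst heq
    exact h
  have hlt : a' < a := lt_of_le_of_ne hle heq
  refine sem_G_top ha |>.2 ⟨hlv _ _ hle (sem_G_root h), fun C hC => ?_⟩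
  obtain ⟨hne, hl, hsup⟩ := (mem_covs ρ).1 hC
  obtain ⟨m, hm, w⟩ := inc_walk hc hK hlv ha' hlt hne hsup (fun c hc' => (hl c hc').1)
    (fun c hc' hc0 a'' ha'' hle' u' v' hs => ih (ρ c) (by rw [← hn]; exact (hl c hc').2) c hc0 a''
      ha'' hle' u' v' hs rfl) h
  exact walk_chain hm w

end Vale.Agent.P183.Lift
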