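import Vale.Agent.P183.Lift.FromRep
import Vale.Agent.P183.Main

namespace Vale.Agent.P183.Lift

universe u

/-- The lifting theorem, in its main form.  Let `J0` be a set of join irreducibles of the finite
lattice `L` such that every nontrivial finite join cover of a member of `J0` refines to a join cover
by members of `J0`, and such that the join dependency relation has no cycles outside `J0`, expressed
by the rank `ρ`.  If the join closure of `J0` is representable then so is `L`. -/
theorem representable_lift (L : Type u) [Lattice L] [Finite L] [Nonempty L] (J0 : Set L) (ρ : L → ℕ)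
    (hirr : ∀ c ∈ J0, SupIrred c)
    (hbase : ∀ a ∈ J0, ∀ (B : Finset L) (hB : B.Nonempty), a ≤ B.sup' hB id → (∀ b ∈ B, ¬ a ≤ b) →
      ∃ (C : Finset L) (hC : C.Nonempty), (∀ c ∈ C, c ∈ J0 ∧ ∃ b ∈ B, c ≤ b) ∧ a ≤ C.sup' hC id)
    (htop : ∀ a : L, SupIrred a → a ∉ J0 → ∀ (B : Finset L) (hB : B.Nonempty), a ≤ B.sup' hB id →
      (∀ b ∈ B, ¬ a ≤ b) → ∃ (C : Finset L) (hC : C.Nonempty),
        (∀ c ∈ C, SupIrred c ∧ (c ∈ J0 ∨ ρ c < ρ a) ∧ ∃ b ∈ B, c ≤ b) ∧ a ≤ C.sup' hC id)
    (hrep : Representable {x : L // ∃ s : Set L, s ⊆ J0 ∧ IsLUB s x}) : Representable L := by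
  classical
  rcases subsingleton_or_nontrivial L with hs | hn
  · exact representable_of_subsingleton
  have := Fintype.ofFinite L
  let _ : BoundedOrder L := Fintype.toBoundedOrder L
  obtain ⟨A, hA, hA', n, ar, op, ⟨ψ⟩⟩ := hrep
  obtain ⟨𝔅⟩ := exists_baseData ψ hirr
  let rk : L → ℕ := fun a => if a ∈ J0 then 0 else ρ a + 1
  have hc : CoverHyp J0 rk := by
    refine ⟨hirr, ?_, ?_, hbase⟩
    · intro c hc a ha _
      simp only [rk, if_pos hc, if_neg ha]
      omega
    · intro a ha ha0 B hB h1 h2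
      obtain ⟨C, hC, h3, h4⟩ := htop a ha ha0 B hB h1 h2
      refine ⟨C, hC, fun c hc' => ?_, h4⟩
      obtain ⟨h5, h6, h7⟩ := h3 c hc'
      refine ⟨h5, ?_, h7⟩
      simp only [rk, if_neg ha0]
      by_cases h8 : c ∈ J0
      · simp only [if_pos h8]
        omega
      · simp only [if_neg h8]
        have := h6.resolve_left h8
        omega
  obtain ⟨K, hK⟩ := exists_K 𝔅
  exact representable_of_bip (Top 𝔅 rk K) (fun s t => conn_le_iff)
    (fun θ hθ => closed_eq_conn hc hK hθ) (conn_closed _)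

end Vale.Agent.P183.Lift
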