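import Vale.Agent.P183.Lift.Gadget

namespace Vale.Agent.P183.Lift

open Relation

universe u

variable {L : Type u} [Lattice L] [BoundedOrder L] [Fintype L] {J0 : Set L}

open Classical in
/-- All join irreducibles. -/
noncomputable def Js : Finset L := Finset.univ.filter SupIrred

theorem mem_Js {c : L} : c ∈ (Js : Finset L) ↔ SupIrred c := by
  classical
  simp [Js]

theorem Js_ne [Nontrivial L] : (Js : Finset L).Nonempty := by
  obtain ⟨s, hs, hs'⟩ := exists_supIrred_decomposition (⊤ : L)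
  rcases s.eq_empty_or_nonempty with rfl | ⟨c, hc⟩
  · simp only [Finset.sup_empty] at hs
    exact absurd hs bot_ne_top
  · exact ⟨c, mem_Js.2 (hs' hc)⟩

variable (𝔅 : BaseData L J0) (ρ : L → ℕ) (K : ℕ)

/-- The carrier graph. -/
noncomputable def Top : Bip L := mk ⊤ {Js} 3 (G 𝔅 ρ K)

/-- An occurrence of the base graph. -/
def XOcc (T : Bip L) (ι : 𝔅.X → T.Vert) : Prop :=
  (∀ ℓ x y, 𝔅.E ℓ x y → T.E ℓ (ι x) (ι y)) ∧
  ∀ (Y : Type) (lv : L → Setoid Y) (f : 𝔅.X → Y), gMor 𝔅.E lv f →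
    ∃ F : T.Vert → Y, T.IsMor lv F ∧ ∀ x, F (ι x) = f x

/-- An edge inside an occurrence of the base graph. -/
def BaseEdge (T : Bip L) (ℓ : L) (u v : T.Vert) : Prop :=
  ∃ ι : 𝔅.X → T.Vert, XOcc 𝔅 T ι ∧ ∃ x y, 𝔅.E ℓ x y ∧ ι x = u ∧ ι y = v

/-- Occurrences of gadgets. -/
def Occ (T : Bip L) (c : L) (x y : T.Vert) : Prop :=
  ∃ ι : (G 𝔅 ρ K c).Vert → T.Vert, Occurrence T (G 𝔅 ρ K c) ι ∧
    ι (Sum.inl false) = x ∧ ι (Sum.inl true) = y

variable {𝔅 ρ K}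

theorem occ_edges (hc : CoverHyp J0 ρ) (a : L) (ha : SupIrred a) (T K' : Bip L)
    (ι : K'.Vert → T.Vert) (hK : K' = G 𝔅 ρ K a) (hι : Occurrence T K' ι) (ℓ : L) (u v : K'.Vert)
    (e : K'.E ℓ u v) :
    SupIrred ℓ ∧ (Occ 𝔅 ρ K T ℓ (ι u) (ι v) ∨ BaseEdge 𝔅 T ℓ (ι u) (ι v)) := by
  classical
  induction' hn : ρ a using Nat.strong_induction_on with n ih generalizing a K' ι ℓ u v
  have hroot : Occ 𝔅 ρ K T a (ι (Sum.inl false)) (ι (Sum.inl true)) := by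
    subst hK
    exact ⟨ι, hι, rfl, rfl⟩
  by_cases ha0 : a ∈ J0
  · rw [G_base 𝔅 ρ K ha0] at hK
    subst hK
    change NE _ _ _ _ _ at e
    cases e with
    | root => exact ⟨ha, Or.inl hroot⟩
    | @sub i j ℓ' u' v' e =>
      have h𝔅 := 𝔅.fin
      have e' : 𝔅.E ℓ (ke _ _ u') (ke _ _ v') := e
      refine ⟨hc.irr _ (𝔅.lab _ _ _ e'), Or.inr ?_⟩
      -- a twin position
      have hq : ∃ q, q ≠ j ∧ (kidS 𝔅 a i j).Tw (kidS 𝔅 a i q) := by
        have hj := j.2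
        change (j : ℕ) < 6 at hj
        by_cases hpar : (j : ℕ) % 2 = 0
        · exact ⟨⟨1, by norm_num⟩, fun h => by have := congrArg Fin.val h; simp at this; omega,
            tw_kidS ha0 (by simp; omega)⟩
        · exact ⟨⟨0, by norm_num⟩, fun h => by have := congrArg Fin.val h; simp at this; omega,
            tw_kidS ha0 (by simp; omega)⟩
      have h1 := hι.trans (occ_emb_tw (kid := kidS 𝔅 a) (a := a) i j hq)
      have hst := pS_ne_pT (𝔅 := 𝔅) ha0 j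
      obtain ⟨h2, h3⟩ := occ_Kbip hst h1
      refine ⟨_, ⟨h2, h3⟩, _, _, e', ?_, ?_⟩
      · exact congrArg _ (congrArg _ (kd_ke hst u'))
      · exact congrArg _ (congrArg _ (kd_ke hst v'))
  · rw [G_top 𝔅 ρ K ha0] at hK
    subst hK
    change NE _ _ _ _ _ at e
    cases e with
    | root => exact ⟨ha, Or.inl hroot⟩
    | sub i j e =>
      have hC := Cf_mem (covs ρ a) i
      have hl := covs_letter ρ hC (wd_mem (covs_ne ρ hC) j)
      obtain ⟨q, hq1, -, hq3⟩ := mk_H1 (g := G 𝔅 ρ K) (Nf_ge K a) (fun C hC => covs_ne ρ hC) i j j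
      have h := occ_emb (kid := mkKid (covs ρ a) (Nf K a) (G 𝔅 ρ K)) (a := a) i j (symP_G _)
        ⟨q, hq1, hq3⟩
      exact ih (ρ (wd (Cf (covs ρ a) i) j)) (by rw [← hn]; exact hl.2) _ hl.1 _
        (fun x => ι (emb (mkKid (covs ρ a) (Nf K a) (G 𝔅 ρ K)) i j x)) rfl (hι.trans h) ℓ _ _ e rfl

theorem G_root_edge (c : L) : (G 𝔅 ρ K c).E c (Sum.inl false) (Sum.inl true) := by
  classical
  have key : ∀ K', K' = G 𝔅 ρ K c → K'.E c (Sum.inl false) (Sum.inl true) := by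
    intro K' hK
    by_cases ha0 : c ∈ J0
    · rw [G_base 𝔅 ρ K ha0] at hK
      subst hK
      exact NE.root
    · rw [G_top 𝔅 ρ K ha0] at hK
      subst hK
      exact NE.root
  exact key _ rfl

theorem occ_sem {c : L} {T : Bip L} {x y : T.Vert} (h : Occ 𝔅 ρ K T c x y) :
    (G 𝔅 ρ K c).Sem T.conn x y := by
  obtain ⟨ι, hι, rfl, rfl⟩ := h
  exact ⟨ι, fun ℓ u v e => T.conn_edge le_rfl (hι.1 ℓ u v e), rfl, rfl⟩

theorem conn_le_conn (T : Bip L) (s t : L) (h : s ≤ t) : T.conn s ≤ T.conn t :=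
  fun _ _ hxy => T.conn_mono h hxy

theorem xocc_mor {T : Bip L} {ι : 𝔅.X → T.Vert} (h : XOcc 𝔅 T ι) : gMor 𝔅.E T.conn ι :=
  fun _ _ _ e => T.conn_edge le_rfl (h.1 _ _ _ e)

theorem xocc_closed {T : Bip L} {ι : 𝔅.X → T.Vert} (h : XOcc 𝔅 T ι) {θ : Setoid T.Vert}
    (hθ : T.Closed θ) : gClosed 𝔅.E (Setoid.comap ι θ) := by
  intro f hf x y hxy
  have hg : gMor 𝔅.E T.conn (fun x => ι (f x)) := gMor_comp (conn_le_conn T) (xocc_mor h) hf
  obtain ⟨F, hF, hF'⟩ := h.2 _ _ _ hg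
  have := hθ F hF _ _ hxy
  rw [hF', hF'] at this
  exact this

section mark

variable {T : Bip L} {θ : Setoid T.Vert}

/-- All images of the terminals of the gadget of `c` lie in `θ`. -/
def Mark (𝔅 : BaseData L J0) (ρ : L → ℕ) (K : ℕ) (T : Bip L) (θ : Setoid T.Vert) (c : L) : Prop :=
  ∀ u v, (G 𝔅 ρ K c).Sem T.conn u v → θ u v

theorem mark_of_occ (hθ : T.Closed θ) {c : L} {x y : T.Vert} (h : Occ 𝔅 ρ K T c x y)
    (hxy : θ x y) : Mark 𝔅 ρ K T θ c := by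
  obtain ⟨ι, hι, rfl, rfl⟩ := h
  rintro u v ⟨f, hf, rfl, rfl⟩
  obtain ⟨F, hF, hF'⟩ := hι.2 _ _ f hf
  have := hθ F hF _ _ hxy
  rwa [hF', hF'] at this

theorem mark_of_base (hθ : T.Closed θ) {ℓ : L} {x y : T.Vert} (h : BaseEdge 𝔅 T ℓ x y)
    (hxy : θ x y) : Mark 𝔅 ρ K T θ ℓ := by
  obtain ⟨ι, hι, x0, y0, e, rfl, rfl⟩ := h
  have hℓ := 𝔅.lab _ _ _ e
  have h1 : gconn 𝔅.E ℓ ≤ Setoid.comap ι θ := 𝔅.gen _ (xocc_closed hι hθ) ℓ x0 y0 e hxy
  have h2 : θ (ι (𝔅.ss ℓ)) (ι (𝔅.tt ℓ)) := h1 (gconn_edge le_rfl (𝔅.edge ℓ hℓ))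
  intro u v huv
  rw [sem_G_base hℓ] at huv
  refine Walk.le ?_ (S_walk hℓ huv)
  have hR : ∀ a b, RR 𝔅 T.conn ℓ a b → θ a b := by
    rintro a b ⟨f, hf, rfl, rfl⟩
    obtain ⟨F, hF, hF'⟩ := hι.2 _ _ f hf
    have := hθ F hF _ _ h2
    rwa [hF', hF'] at this
  rintro a b (h3 | h3)
  · exact hR _ _ h3
  · exact θ.symm' (hR _ _ h3)

theorem base_of_mark (hθ : T.Closed θ) {ℓ : L} {x y : T.Vert} (h : BaseEdge 𝔅 T ℓ x y)
    (hm : Mark 𝔅 ρ K T θ ℓ) : θ x y := by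
  obtain ⟨ι, hι, x0, y0, e, rfl, rfl⟩ := h
  have hℓ := 𝔅.lab _ _ _ e
  have h2 : θ (ι (𝔅.ss ℓ)) (ι (𝔅.tt ℓ)) := by
    refine hm _ _ ((sem_G_base hℓ).2 (sem_S_of_RR hℓ ⟨ι, xocc_mor hι, rfl, rfl⟩))
  have h1 : gconn 𝔅.E ℓ ≤ Setoid.comap ι θ :=
    𝔅.gen _ (xocc_closed hι hθ) ℓ _ _ (𝔅.edge ℓ hℓ) h2
  exact h1 (gconn_edge le_rfl e)

theorem mark_mono (hc : CoverHyp J0 ρ) (hK : KBound 𝔅 K) {a a' : L} (ha' : SupIrred a')
    (hle : a' ≤ a) (h : Mark 𝔅 ρ K T θ a) : Mark 𝔅 ρ K T θ a' := by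
  classical
  intro u v huv
  by_cases ha : a ∈ J0
  · by_cases ha0 : a' ∈ J0
    · rw [sem_G_base ha0] at huv
      obtain ⟨m, -, w⟩ := base_step hK (conn_le_conn T) ha0 (Finset.singleton_nonempty a)
        (fun d hd => by rw [Finset.mem_singleton.mp hd]; exact ha) (sup'_singleton_le hle) huv
      refine Walk.le ?_ w
      rintro x y ⟨d, hd, hs⟩
      rw [Finset.mem_singleton.mp hd] at hs
      exact h _ _ ((sem_G_base ha).2 hs)
    · exact Walk.le (fun x y hs => h _ _ hs) (walk_of_base_above hc ha' ha0 ha hle huv)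
  · exact h _ _ (inc hc hK (conn_le_conn T) a ha a' ha' hle u v huv)

theorem mark_cover_top {a : L} (ha : a ∉ J0) {C : Finset L} (hC : C ∈ covs ρ a)
    (h : ∀ c ∈ C, Mark 𝔅 ρ K T θ c) : Mark 𝔅 ρ K T θ a := by
  intro u v huv
  have w := chain_walk (covs_ne ρ hC) ((sem_G_top ha |>.1 huv).2 C hC)
  refine Walk.le ?_ w
  rintro x y ⟨c, hc, hs⟩
  exact h c hc _ _ hs

theorem mark_cover_base (hK : KBound 𝔅 K) {c : L} (hc : c ∈ J0) {C : Finset L} (hC : C.Nonempty)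
    (hC0 : ∀ c' ∈ C, c' ∈ J0) (hle : c ≤ C.sup' hC id) (h : ∀ c' ∈ C, Mark 𝔅 ρ K T θ c') :
    Mark 𝔅 ρ K T θ c := by
  intro u v huv
  rw [sem_G_base hc] at huv
  obtain ⟨m, -, w⟩ := base_step hK (conn_le_conn T) hc hC hC0 hle huv
  refine Walk.le ?_ w
  rintro x y ⟨d, hd, hs⟩
  exact h d hd _ _ ((sem_G_base (hC0 d hd)).2 hs)

/-- The covering closure of marked letters. -/
theorem all_mark (hc : CoverHyp J0 ρ) (hK : KBound 𝔅 K) {S' : Finset L}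
    (hS : ∀ ℓ ∈ S', ∀ a, SupIrred a → a ≤ ℓ → Mark 𝔅 ρ K T θ a) (c : L) (hci : SupIrred c)
    (hcS : c ≤ S'.sup id) : Mark 𝔅 ρ K T θ c := by
  classical
  induction' hn : ρ c using Nat.strong_induction_on with n ih generalizing c
  by_cases hex : ∃ ℓ ∈ S', c ≤ ℓ
  · obtain ⟨ℓ, hℓ, hcℓ⟩ := hex
    exact hS ℓ hℓ c hci hcℓ
  · have hex' : ∀ b ∈ S', ¬ c ≤ b := fun b hb hab => hex ⟨b, hb, hab⟩
    have hne : S'.Nonempty := by
      rcases S'.eq_empty_or_nonempty with rfl | h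
      · simp only [Finset.sup_empty, le_bot_iff] at hcS
        exact absurd (hcS ▸ isMin_bot) hci.1
      · exact h
    have hsup : c ≤ S'.sup' hne id := by
      rw [Finset.sup'_eq_sup]
      exact hcS
    by_cases hc0 : c ∈ J0
    · obtain ⟨C, hC, h3, h4⟩ := hc.base c hc0 S' hne hsup hex'
      refine mark_cover_base hK hc0 hC (fun d hd => (h3 d hd).1) h4 (fun d hd => ?_)
      obtain ⟨h5, b, hb, hdb⟩ := h3 d hd
      exact hS b hb d (hc.irr d h5) hdb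
    · obtain ⟨C, hC, h3, h4⟩ := hc.top c hci hc0 S' hne hsup hex'
      have hCmem : C ∈ covs ρ c := (mem_covs ρ).2 ⟨hC, fun d hd => ⟨(h3 d hd).1, (h3 d hd).2.1⟩, h4⟩
      refine mark_cover_top hc0 hCmem (fun d hd => ?_)
      obtain ⟨h5, h6, b, hb, hdb⟩ := h3 d hd
      exact ih (ρ d) (by rw [← hn]; exact h6) d h5 (hdb.trans (Finset.le_sup (f := id) hb)) rfl

end mark

section top

variable [Nontrivial L]

theorem top_ne : ∀ C ∈ ({Js} : Finset (Finset L)), C.Nonempty := by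
  intro C hC
  rw [Finset.mem_singleton] at hC
  subst hC
  exact Js_ne

theorem sem_top {Y : Type} {lv : L → Setoid Y} {u v : Y} :
    (Top 𝔅 ρ K).Sem lv u v ↔ lv ⊤ u v ∧
      Chain (fun j => (G 𝔅 ρ K (wd Js j)).Sem lv) 0 (3 * (2 * (Js : Finset L).card)) u v := by
  unfold Top
  rw [sem_mk (by norm_num) top_ne]
  simp

theorem PL_top : (Top 𝔅 ρ K).PLProp :=
  PL_mk (le_refl 3) top_ne (fun _ _ c _ => PL_G c) (fun _ _ c _ => symP_G c)

theorem top_ear : ∃ y : ℕ → (Top 𝔅 ρ K).Vert, y 0 = Sum.inl false ∧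
    y (3 * (2 * (Js : Finset L).card)) = Sum.inl true ∧
    ∀ j, j < 3 * (2 * (Js : Finset L).card) →
      Occ 𝔅 ρ K (Top 𝔅 ρ K) (wd Js j) (y j) (y (j + 1)) :=
  mk_ear (le_refl 3) top_ne (fun _ _ c _ => symP_G c) (Finset.mem_singleton.mpr rfl)
    (Occurrence.refl _)

theorem top_occ {c : L} (hc : SupIrred c) : ∃ x y, Occ 𝔅 ρ K (Top 𝔅 ρ K) c x y := by
  obtain ⟨y, _, _, hs⟩ := top_ear (𝔅 := 𝔅) (ρ := ρ) (K := K)
  obtain ⟨e, he, rfl⟩ := wd_surj (mem_Js.2 hc)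
  exact ⟨_, _, hs e (by omega)⟩

theorem top_edges (hc : CoverHyp J0 ρ) {ℓ : L} {u v : (Top 𝔅 ρ K).Vert} (e : (Top 𝔅 ρ K).E ℓ u v) :
    (ℓ = ⊤ ∧ u = Sum.inl false ∧ v = Sum.inl true) ∨
    (SupIrred ℓ ∧ (Occ 𝔅 ρ K (Top 𝔅 ρ K) ℓ u v ∨ BaseEdge 𝔅 (Top 𝔅 ρ K) ℓ u v)) := by
  change NE _ _ _ _ _ at e
  cases e with
  | root => exact Or.inl ⟨rfl, rfl, rfl⟩
  | sub i j e =>
    right
    have hC := Cf_mem ({Js} : Finset (Finset L)) i
    have hne := top_ne _ hC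
    have hl : SupIrred (wd (Cf ({Js} : Finset (Finset L)) i) j) := by
      have := wd_mem hne j
      rw [Finset.mem_singleton.mp hC] at this ⊢
      exact mem_Js.1 this
    obtain ⟨q, hq1, -, hq3⟩ := mk_H1 (g := G 𝔅 ρ K) (le_refl 3) top_ne i j j
    have h := occ_emb (kid := mkKid ({Js} : Finset (Finset L)) 3 (G 𝔅 ρ K)) (a := ⊤) i j (symP_G _)
      ⟨q, hq1, hq3⟩
    exact occ_edges hc _ hl _ _ _ rfl h ℓ _ _ e

/-- Edges with labels below the supremum of the labels of edges in a closed equivalence lie in the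
equivalence. -/
theorem edge_in_theta (hc : CoverHyp J0 ρ) (hK : KBound 𝔅 K) {θ : Setoid (Top 𝔅 ρ K).Vert}
    (hθ : (Top 𝔅 ρ K).Closed θ)
    {S' : Finset L} (hS : ∀ ℓ ∈ S', ∃ u v, (Top 𝔅 ρ K).E ℓ u v ∧ θ u v) {ℓ : L}
    {u v : (Top 𝔅 ρ K).Vert} (e : (Top 𝔅 ρ K).E ℓ u v) (hℓ : ℓ ≤ S'.sup id) : θ u v := by
  have hS' : ∀ ℓ ∈ S', ∀ a, SupIrred a → a ≤ ℓ → Mark 𝔅 ρ K (Top 𝔅 ρ K) θ a := by
    intro ℓ' hℓ' a ha hle
    obtain ⟨x, y, e', hxy⟩ := hS ℓ' hℓ'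
    rcases top_edges hc e' with ⟨-, rfl, rfl⟩ | ⟨hi, h | h⟩
    · intro u' v' hs
      have h1 : (Top 𝔅 ρ K).Sem (Top 𝔅 ρ K).conn u' v' := by
        refine sem_top.2 ⟨conn_le_conn _ _ _ le_top (sem_G_root hs), ?_⟩
        exact chain_letter' (mem_Js.2 ha) (by norm_num) hs
      obtain ⟨F, hF, rfl, rfl⟩ := h1
      exact hθ F hF _ _ hxy
    · exact mark_mono hc hK ha hle (mark_of_occ hθ h hxy)
    · exact mark_mono hc hK ha hle (mark_of_base hθ h hxy)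
  have hall := all_mark hc hK hS'
  rcases top_edges hc e with ⟨rfl, rfl, rfl⟩ | ⟨hi, h | h⟩
  · obtain ⟨y, h0, h1, hs⟩ := top_ear (𝔅 := 𝔅) (ρ := ρ) (K := K)
    rw [← h0, ← h1]
    have key : ∀ m, m ≤ 3 * (2 * (Js : Finset L).card) → θ (y 0) (y m) := by
      intro m
      induction m with
      | zero => intro _; exact θ.refl' _
      | succ m ih2 =>
        intro hm
        refine θ.trans' (ih2 (by omega)) ?_
        exact hall _ (mem_Js.1 (wd_mem Js_ne m)) (le_top.trans hℓ) _ _ (occ_sem (hs m (by omega)))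
    exact key _ le_rfl
  · exact hall ℓ hi hℓ _ _ (occ_sem h)
  · exact base_of_mark hθ h (hall ℓ hi hℓ)

/-- Closed equivalences are the connectivity relations. -/
theorem closed_eq_conn (hc : CoverHyp J0 ρ) (hK : KBound 𝔅 K) {θ : Setoid (Top 𝔅 ρ K).Vert}
    (hθ : (Top 𝔅 ρ K).Closed θ) : ∃ τ : L, θ = (Top 𝔅 ρ K).conn τ := by
  classical
  let S' : Finset L := Finset.univ.filter (fun ℓ => ∃ u v, (Top 𝔅 ρ K).E ℓ u v ∧ θ u v)
  have hS : ∀ ℓ ∈ S', ∃ u v, (Top 𝔅 ρ K).E ℓ u v ∧ θ u v := by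
    intro ℓ hℓ
    exact (Finset.mem_filter.mp hℓ).2
  refine ⟨S'.sup id, le_antisymm ?_ ?_⟩
  · intro x y hxy
    have h := PL_top θ hθ x y hxy
    change EqvGen _ x y at h
    change EqvGen _ x y
    refine EqvGen.mono ?_ _ _ h
    rintro u v ⟨⟨ℓ, e⟩, huv⟩
    refine ⟨ℓ, Finset.le_sup (f := id) ?_, e⟩
    exact Finset.mem_filter.mpr ⟨Finset.mem_univ _, u, v, e, huv⟩
  · intro x y hxy
    change EqvGen _ x y at hxy
    induction hxy with
    | rel _ _ h =>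
      obtain ⟨ℓ, hℓ, e⟩ := h
      exact edge_in_theta hc hK hθ hS e hℓ
    | refl x => exact θ.refl' _
    | symm _ _ _ ih => exact θ.symm' ih
    | trans _ _ _ _ _ ih1 ih2 => exact θ.trans' ih1 ih2

end top

/-- Morphisms preserve all the connectivity relations. -/
theorem conn_closed (T : Bip L) (t : L) : T.Closed (T.conn t) := by
  intro f hf x y hxy
  change EqvGen _ x y at hxy
  induction hxy with
  | rel _ _ h =>
    obtain ⟨ℓ, hℓ, e⟩ := h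
    exact T.conn_mono hℓ (hf _ _ _ e)
  | refl x => exact (T.conn t).refl' _
  | symm _ _ _ ih => exact (T.conn t).symm' ih
  | trans _ _ _ _ _ ih1 ih2 => exact (T.conn t).trans' ih1 ih2

/-- The test levels on a two element set. -/
noncomputable def lvt (t b : L) : Setoid Bool := by
  classical
  exact if b ≤ t then ⊥ else ⊤

theorem lvt_le {t b : L} (h : b ≤ t) {x y : Bool} (hxy : lvt t b x y) : x = y := by
  unfold lvt at hxy
  rw [if_pos h] at hxy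
  exact hxy

theorem lvt_top {t b : L} (h : ¬ b ≤ t) (x y : Bool) : lvt t b x y := by
  unfold lvt
  rw [if_neg h]
  trivial

theorem lvt_refl_eq {t b : L} {x y : Bool} (h : x = y) : lvt t b x y := by
  subst h
  exact (lvt t b).refl' x

theorem sep_G {t : L} (a : L) (h : ¬ a ≤ t) : (G 𝔅 ρ K a).Sem (lvt t) false true := by
  classical
  induction' hn : ρ a using Nat.strong_induction_on with n ih generalizing a
  by_cases ha : a ∈ J0
  · refine (sem_G_base ha).2 (sem_S_of_RR ha ?_)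
    refine ⟨fun x => decide (¬ gconn 𝔅.E t (𝔅.ss a) x), ?_, ?_, ?_⟩
    · intro ℓ u v e
      by_cases hℓ : ℓ ≤ t
      · apply lvt_refl_eq
        have h1 : gconn 𝔅.E t u v := gconn_edge hℓ e
        have h2 : gconn 𝔅.E t (𝔅.ss a) u ↔ gconn 𝔅.E t (𝔅.ss a) v :=
          ⟨fun h3 => (gconn 𝔅.E t).trans' h3 h1, fun h3 => (gconn 𝔅.E t).trans' h3 ((gconn 𝔅.E t).symm' h1)⟩
        simp only [h2]
      · exact lvt_top hℓ _ _
    · simp only [decide_eq_false_iff_not, not_not]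
      exact (gconn 𝔅.E t).refl' _
    · simp only [decide_eq_true_eq]
      exact 𝔅.sep a ha t h
  · refine sem_G_top ha |>.2 ⟨lvt_top h _ _, fun C hC => ?_⟩
    obtain ⟨hne, _, hsup⟩ := (mem_covs ρ).1 hC
    have hex : ∃ c ∈ C, ¬ c ≤ t := by
      by_contra hc
      have hc' : ∀ c ∈ C, c ≤ t := fun c hc1 => by
        by_contra hc2
        exact hc ⟨c, hc1, hc2⟩
      exact h (hsup.trans (Finset.sup'_le _ _ hc'))
    obtain ⟨c, hc, hct⟩ := hex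
    exact chain_letter' hc (Nf_pos K a)
      (ih (ρ c) (by rw [← hn]; exact (covs_letter ρ hC hc).2) c hct rfl)

theorem sep_conn {t c : L} (h : ¬ c ≤ t) {T : Bip L} {x y : T.Vert} (hxy : Occ 𝔅 ρ K T c x y) :
    ¬ T.conn t x y := by
  obtain ⟨ι, hι, rfl, rfl⟩ := hxy
  obtain ⟨f, hf, h0, h1⟩ := sep_G (𝔅 := 𝔅) (ρ := ρ) (K := K) c h
  obtain ⟨F, hF, hF'⟩ := hι.2 _ _ f hf
  intro hc
  have key : ∀ u v, T.conn t u v → F u = F v := by
    intro u v huv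
    change EqvGen _ u v at huv
    induction huv with
    | rel _ _ h =>
      obtain ⟨ℓ, hℓ, e⟩ := h
      exact lvt_le hℓ (hF _ _ _ e)
    | refl x => rfl
    | symm _ _ _ ih => exact ih.symm
    | trans _ _ _ _ _ ih1 ih2 => exact ih1.trans ih2
  have := key _ _ hc
  rw [hF', hF', h0, h1] at this
  exact Bool.false_ne_true this

theorem conn_le_iff [Nontrivial L] {s t : L} :
    (Top 𝔅 ρ K).conn s ≤ (Top 𝔅 ρ K).conn t ↔ s ≤ t := by
  refine ⟨fun h => ?_, conn_le_conn _ _ _⟩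
  obtain ⟨C, hC, hC'⟩ := exists_supIrred_decomposition s
  rw [← hC]
  refine Finset.sup_le (fun c hc => ?_)
  have hcs : c ≤ s := by
    rw [← hC]
    exact Finset.le_sup (f := id) hc
  by_contra hct
  obtain ⟨x, y, hxy⟩ := top_occ (𝔅 := 𝔅) (ρ := ρ) (K := K) (hC' hc)
  refine sep_conn hct hxy (h ?_)
  obtain ⟨ι, hι, rfl, rfl⟩ := hxy
  exact (Top 𝔅 ρ K).conn_edge hcs (hι.1 c _ _ (G_root_edge c))

end Vale.Agent.P183.Lift
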